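import Mathlib

/-!
Rotationally symmetric spheres `ds² + g(s)² dθ²`, `s ∈ [0, L]`, with negative curvature at both
poles and `|g'| < 2`: definitions shared by the files in this folder.

Ansatz (weights `(1, 2)`): `Φ(s, θ) = (ρ₁ e^{i(θ + φ₁)}, ρ₂ e^{i(2θ + φ₂)})` with
`ρ₁ = g √(1 - w)`, `ρ₂ = (g/2) √w`, `0 < w < 1`.
-/

namespace Vale.Agent.H55.Sph

open scoped ContDiff

/-- The deficit `1 - ρ₁'² - ρ₂'²` for `ρ₁ = g √(1 - w)`, `ρ₂ = (g/2) √w`, as a function of the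
values `g, g', w, w'` at one point. -/
noncomputable def Dfun (g g' w w' : ℝ) : ℝ :=
  1 - g' ^ 2 * (1 - 3 * w / 4) + 3 / 4 * g * g' * w'
    - g ^ 2 * w' ^ 2 * (1 + 3 * w) / (16 * w * (1 - w))

theorem Dfun_neg (g g' w w' : ℝ) : Dfun g (-g') w (-w') = Dfun g g' w w' := by
  unfold Dfun
  ring

/-- The function `Λ(w) = w / (1 - w)⁴`, an increasing bijection `[-1/4, 1) → [-64/625, ∞)`. -/
noncomputable def Lam (w : ℝ) : ℝ := w / (1 - w) ^ 4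

/-- The inverse of `Λ` on `[-1/4, 1)`. -/
noncomputable def Li (P : ℝ) : ℝ := Function.invFunOn Lam (Set.Ico (-1 / 4 : ℝ) 1) P

/-- Standing assumptions: the profile `g` of a smooth rotationally symmetric metric
`ds² + g(s)² dθ²` on the sphere (`g(s) = s h(s²)` near `0`, `g(s) = (L - s) hS((L - s)²)` near
`L`, `h(0) = hS(0) = 1`, `g > 0` on `(0, L)`), with negative curvature at both poles
(`h'(0) > 0`, `hS'(0) > 0`) and `|g'| < 2`. -/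
structure SphData (L ε : ℝ) (g h hS : ℝ → ℝ) : Prop where
  Lpos : 0 < L
  εpos : 0 < ε
  sg : ContDiff ℝ ∞ g
  sh : ContDiff ℝ ∞ h
  shS : ContDiff ℝ ∞ hS
  gN : ∀ s, |s| < ε → g s = s * h (s ^ 2)
  gS : ∀ s, |s - L| < ε → g s = (L - s) * hS ((L - s) ^ 2)
  h0 : h 0 = 1
  hS0 : hS 0 = 1
  gpos : ∀ s, 0 < s → s < L → 0 < g s
  KN : 0 < deriv h 0
  KS : 0 < deriv hS 0
  slope : ∀ s, 0 ≤ s → s ≤ L → |deriv g s| < 2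

/-- A profile `w` on `(0, L)` with positive deficit and smooth germs at both poles:
`w = s² ω(s²)` and deficit `= s⁶ Q(s²)` with `ω, Q` smooth and positive near `0`. -/
structure WProfile (L : ℝ) (g w ωN QN ωS QS : ℝ → ℝ) (η : ℝ) : Prop where
  ηpos : 0 < η
  sw : ContDiffOn ℝ ∞ w (Set.Ioo 0 L)
  w01 : ∀ s, 0 < s → s < L → 0 < w s ∧ w s < 1
  Dpos : ∀ s, 0 < s → s < L → 0 < Dfun (g s) (deriv g s) (w s) (deriv w s)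
  sωN : ContDiffOn ℝ ∞ ωN (Set.Ioo (-η) η)
  sQN : ContDiffOn ℝ ∞ QN (Set.Ioo (-η) η)
  posN : ∀ t, |t| < η → 0 < ωN t ∧ 0 < QN t ∧ t * ωN t < 1
  wN : ∀ s, 0 < s → s ^ 2 < η → w s = s ^ 2 * ωN (s ^ 2)
  DN : ∀ s, 0 < s → s ^ 2 < η →
    Dfun (g s) (deriv g s) (w s) (deriv w s) = s ^ 6 * QN (s ^ 2)
  sωS : ContDiffOn ℝ ∞ ωS (Set.Ioo (-η) η)
  sQS : ContDiffOn ℝ ∞ QS (Set.Ioo (-η) η)
  posS : ∀ t, |t| < η → 0 < ωS t ∧ 0 < QS t ∧ t * ωS t < 1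
  wS : ∀ s, 0 < s → s ^ 2 < η → w (L - s) = s ^ 2 * ωS (s ^ 2)
  DS : ∀ s, 0 < s → s ^ 2 < η →
    Dfun (g (L - s)) (deriv g (L - s)) (w (L - s)) (deriv w (L - s)) = s ^ 6 * QS (s ^ 2)

/-- The three first-fundamental-form identities of `Ψ` at the origin for the Euclidean metric
`dx² + dy²` (the metric `ds² + g² dθ²` at a pole, in the Cartesian chart). -/
def PoleIsom (Ψ : ℝ × ℝ → EuclideanSpace ℝ (Fin 4)) : Prop :=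
  inner ℝ (fderiv ℝ Ψ (0, 0) (1, 0)) (fderiv ℝ Ψ (0, 0) (1, 0)) = (1 : ℝ) ∧
  inner ℝ (fderiv ℝ Ψ (0, 0) (1, 0)) (fderiv ℝ Ψ (0, 0) (0, 1)) = (0 : ℝ) ∧
  inner ℝ (fderiv ℝ Ψ (0, 0) (0, 1)) (fderiv ℝ Ψ (0, 0) (0, 1)) = (1 : ℝ)

/-- A smooth isometric immersion into `ℝ⁴` of the sphere with metric `ds² + g(s)² dθ²`,
`0 ≤ s ≤ L`: a map `Φ` in the polar chart `(s, θ)` on `(0, L) × ℝ`, `2π`-periodic in `θ`,
with first fundamental form `ds² + g² dθ²`, which near each pole is the polar-coordinate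
expression of a map `ΨN` (resp. `ΨS`) that is smooth on a disc in the Cartesian chart
`(x, y) = (s cos θ, s sin θ)` (resp. `((L - s) cos θ, (L - s) sin θ)`) and isometric at its
centre. -/
def SphImm (L : ℝ) (g : ℝ → ℝ) : Prop :=
  ∃ (Φ ΨN ΨS : ℝ × ℝ → EuclideanSpace ℝ (Fin 4)) (δ : ℝ), 0 < δ ∧
    ContDiffOn ℝ ∞ Φ (Set.Ioo 0 L ×ˢ Set.univ) ∧
    (∀ s θ : ℝ, Φ (s, θ + 2 * Real.pi) = Φ (s, θ)) ∧
    (∀ p : ℝ × ℝ, 0 < p.1 → p.1 < L →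
      inner ℝ (fderiv ℝ Φ p (1, 0)) (fderiv ℝ Φ p (1, 0)) = (1 : ℝ) ∧
      inner ℝ (fderiv ℝ Φ p (1, 0)) (fderiv ℝ Φ p (0, 1)) = (0 : ℝ) ∧
      inner ℝ (fderiv ℝ Φ p (0, 1)) (fderiv ℝ Φ p (0, 1)) = g p.1 ^ 2) ∧
    ContDiffOn ℝ ∞ ΨN {q : ℝ × ℝ | q.1 ^ 2 + q.2 ^ 2 < δ ^ 2} ∧
    ContDiffOn ℝ ∞ ΨS {q : ℝ × ℝ | q.1 ^ 2 + q.2 ^ 2 < δ ^ 2} ∧
    PoleIsom ΨN ∧ PoleIsom ΨS ∧
    (∀ s θ : ℝ, 0 < s → s < δ → Φ (s, θ) = ΨN (s * Real.cos θ, s * Real.sin θ)) ∧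
    (∀ s θ : ℝ, 0 < s → s < δ → Φ (L - s, θ) = ΨS (s * Real.cos θ, s * Real.sin θ))

end Vale.Agent.H55.Sph
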