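import Vale.Agent.H55.Sph.ImDefs

/-!
SUB-ROW IM-CHART of row SPH-IMM: the Cartesian chart `imChart A1 A2 B1 B2` (ImDefs.lean) at a
pole.  Helper lemmas: fresh names with stem `imc_` in this file.  Keep the three statements
exactly.

`im_chart_contDiffOn`: `contDiffOn_euclidean`, then each of the four components is a polynomial
in `q.1, q.2` times `A (q.1 ^ 2 + q.2 ^ 2)`; `r q = q.1 ^ 2 + q.2 ^ 2` is smooth and maps the set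
`{q | q.1 ^ 2 + q.2 ^ 2 < η}` into `Ioo (-η) η` (`r ≥ 0 > -η`), so `ContDiffOn.comp`.

`im_chart_poleIsom`: at the origin the four functions `q ↦ A (r q)` are differentiable
(`A` is smooth on the open set `Ioo (-η) η ∋ 0`), so by the product rule the derivative of the
chart at the origin sends the vector 1, 0 to A1 0, A2 0, 0, 0 and the vector 0, 1 to -A2 0, A1 0, 0, 0
(the terms containing the derivative of `A (r q)` carry a factor `q.1` or `q.2` that vanishes at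
the origin; the last two components have factors of degree two).  Coordinates of the derivative:
as `hcoord` in the proof of `equivMap_metric` (EquivImm.lean).  Then the three inner products
are `A1 0 ^ 2 + A2 0 ^ 2 = 1`, `-(A1 0 * A2 0) + A2 0 * A1 0 = 0`, `A2 0 ^ 2 + A1 0 ^ 2 = 1`.

`im_chart_polar`: unfold `Imm.equivMap`, `Imm.compC`, `Imm.compS`, `imChart`; with
`q = (s cos θ, s sin θ)`: `q.1 ^ 2 + q.2 ^ 2 = s ^ 2`, `cos (2 θ) = cos² θ - sin² θ`,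
`sin (2 θ) = 2 sin θ cos θ`.
-/

namespace Vale.Agent.H55.Sph

open scoped ContDiff

/-- The squared radius is smooth. -/
theorem imc_r_contDiff : ContDiff ℝ ∞ (fun q : ℝ × ℝ => q.1 ^ 2 + q.2 ^ 2) :=
  (contDiff_fst.pow 2).add (contDiff_snd.pow 2)

/-- A smooth function of the squared radius is smooth on the disc. -/
theorem imc_comp_contDiffOn (η : ℝ) (A : ℝ → ℝ) (hη : 0 < η)
    (hA : ContDiffOn ℝ ∞ A (Set.Ioo (-η) η)) :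
    ContDiffOn ℝ ∞ (fun q : ℝ × ℝ => A (q.1 ^ 2 + q.2 ^ 2))
      {q : ℝ × ℝ | q.1 ^ 2 + q.2 ^ 2 < η} := by
  have hmaps : Set.MapsTo (fun q : ℝ × ℝ => q.1 ^ 2 + q.2 ^ 2)
      {q : ℝ × ℝ | q.1 ^ 2 + q.2 ^ 2 < η} (Set.Ioo (-η) η) := by
    intro q hq
    have hq' : q.1 ^ 2 + q.2 ^ 2 < η := hq
    exact ⟨by nlinarith [sq_nonneg q.1, sq_nonneg q.2], hq'⟩
  exact hA.comp imc_r_contDiff.contDiffOn hmaps

/-- The disc is a neighbourhood of the origin. -/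
theorem imc_disc_mem (η : ℝ) (hη : 0 < η) :
    {q : ℝ × ℝ | q.1 ^ 2 + q.2 ^ 2 < η} ∈ nhds ((0 : ℝ), (0 : ℝ)) := by
  have ho : IsOpen {q : ℝ × ℝ | q.1 ^ 2 + q.2 ^ 2 < η} :=
    isOpen_lt imc_r_contDiff.continuous continuous_const
  refine ho.mem_nhds ?_
  show (0 : ℝ) ^ 2 + (0 : ℝ) ^ 2 < η
  norm_num
  exact hη

/-- A smooth function of the squared radius is differentiable at the origin. -/
theorem imc_comp_diffAt (η : ℝ) (A : ℝ → ℝ) (hη : 0 < η)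
    (hA : ContDiffOn ℝ ∞ A (Set.Ioo (-η) η)) :
    DifferentiableAt ℝ (fun q : ℝ × ℝ => A (q.1 ^ 2 + q.2 ^ 2)) ((0 : ℝ), (0 : ℝ)) := by
  have h := (imc_comp_contDiffOn η A hη hA).contDiffAt (imc_disc_mem η hη)
  exact h.differentiableAt (by simp)

theorem imc_fderiv_lin (a b : ℝ × ℝ → ℝ) (ha : DifferentiableAt ℝ a ((0 : ℝ), (0 : ℝ)))
    (hb : DifferentiableAt ℝ b ((0 : ℝ), (0 : ℝ))) (v : ℝ × ℝ) :
    fderiv ℝ (fun q : ℝ × ℝ => q.1 * a q - q.2 * b q) ((0 : ℝ), (0 : ℝ)) v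
      = v.1 * a ((0 : ℝ), (0 : ℝ)) - v.2 * b ((0 : ℝ), (0 : ℝ)) := by
  have h : HasFDerivAt (fun q : ℝ × ℝ => q.1 * a q - q.2 * b q) _ ((0 : ℝ), (0 : ℝ)) :=
    ((hasFDerivAt_fst (𝕜 := ℝ) (E := ℝ) (F := ℝ) (p := ((0 : ℝ), (0 : ℝ)))).mul
      ha.hasFDerivAt).sub
    ((hasFDerivAt_snd (𝕜 := ℝ) (E := ℝ) (F := ℝ) (p := ((0 : ℝ), (0 : ℝ)))).mul hb.hasFDerivAt)
  rw [h.fderiv]
  simp only [sub_apply, add_apply,
    smul_apply, ContinuousLinearMap.coe_fst', ContinuousLinearMap.coe_snd',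
    smul_eq_mul, zero_mul, zero_add]
  ring

theorem imc_fderiv_lin' (a b : ℝ × ℝ → ℝ) (ha : DifferentiableAt ℝ a ((0 : ℝ), (0 : ℝ)))
    (hb : DifferentiableAt ℝ b ((0 : ℝ), (0 : ℝ))) (v : ℝ × ℝ) :
    fderiv ℝ (fun q : ℝ × ℝ => q.1 * b q + q.2 * a q) ((0 : ℝ), (0 : ℝ)) v
      = v.1 * b ((0 : ℝ), (0 : ℝ)) + v.2 * a ((0 : ℝ), (0 : ℝ)) := by
  have h : HasFDerivAt (fun q : ℝ × ℝ => q.1 * b q + q.2 * a q) _ ((0 : ℝ), (0 : ℝ)) :=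
    ((hasFDerivAt_fst (𝕜 := ℝ) (E := ℝ) (F := ℝ) (p := ((0 : ℝ), (0 : ℝ)))).mul
      hb.hasFDerivAt).add
    ((hasFDerivAt_snd (𝕜 := ℝ) (E := ℝ) (F := ℝ) (p := ((0 : ℝ), (0 : ℝ)))).mul ha.hasFDerivAt)
  rw [h.fderiv]
  simp only [add_apply,
    smul_apply, ContinuousLinearMap.coe_fst', ContinuousLinearMap.coe_snd',
    smul_eq_mul, zero_mul, zero_add]
  ring

/-- The two quadratic polynomials have zero derivative at the origin. -/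
theorem imc_hasFDerivAt_sq :
    HasFDerivAt (fun q : ℝ × ℝ => q.1 ^ 2 - q.2 ^ 2) (0 : ℝ × ℝ →L[ℝ] ℝ) ((0 : ℝ), (0 : ℝ)) := by
  have h : HasFDerivAt (fun q : ℝ × ℝ => q.1 ^ 2 - q.2 ^ 2) _ ((0 : ℝ), (0 : ℝ)) :=
    ((hasFDerivAt_fst (𝕜 := ℝ) (E := ℝ) (F := ℝ) (p := ((0 : ℝ), (0 : ℝ)))).pow 2).sub
    ((hasFDerivAt_snd (𝕜 := ℝ) (E := ℝ) (F := ℝ) (p := ((0 : ℝ), (0 : ℝ)))).pow 2)
  refine h.congr_fderiv ?_
  ext <;> simp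

theorem imc_hasFDerivAt_xy :
    HasFDerivAt (fun q : ℝ × ℝ => 2 * q.1 * q.2) (0 : ℝ × ℝ →L[ℝ] ℝ) ((0 : ℝ), (0 : ℝ)) := by
  have h : HasFDerivAt (fun q : ℝ × ℝ => 2 * q.1 * q.2) _ ((0 : ℝ), (0 : ℝ)) :=
    (((hasFDerivAt_fst (𝕜 := ℝ) (E := ℝ) (F := ℝ) (p := ((0 : ℝ), (0 : ℝ)))).const_mul
    (2 : ℝ)).mul (hasFDerivAt_snd (𝕜 := ℝ) (E := ℝ) (F := ℝ) (p := ((0 : ℝ), (0 : ℝ)))))
  refine h.congr_fderiv ?_
  ext <;> simp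

theorem imc_fderiv_quad (a b : ℝ × ℝ → ℝ) (ha : DifferentiableAt ℝ a ((0 : ℝ), (0 : ℝ)))
    (hb : DifferentiableAt ℝ b ((0 : ℝ), (0 : ℝ))) (v : ℝ × ℝ) :
    fderiv ℝ (fun q : ℝ × ℝ => (q.1 ^ 2 - q.2 ^ 2) * a q - 2 * q.1 * q.2 * b q)
      ((0 : ℝ), (0 : ℝ)) v = 0 := by
  have h : HasFDerivAt (fun q : ℝ × ℝ => (q.1 ^ 2 - q.2 ^ 2) * a q - 2 * q.1 * q.2 * b q) _
      ((0 : ℝ), (0 : ℝ)) :=
    (imc_hasFDerivAt_sq.mul ha.hasFDerivAt).sub (imc_hasFDerivAt_xy.mul hb.hasFDerivAt)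
  rw [h.fderiv]
  simp

theorem imc_fderiv_quad' (a b : ℝ × ℝ → ℝ) (ha : DifferentiableAt ℝ a ((0 : ℝ), (0 : ℝ)))
    (hb : DifferentiableAt ℝ b ((0 : ℝ), (0 : ℝ))) (v : ℝ × ℝ) :
    fderiv ℝ (fun q : ℝ × ℝ => (q.1 ^ 2 - q.2 ^ 2) * b q + 2 * q.1 * q.2 * a q)
      ((0 : ℝ), (0 : ℝ)) v = 0 := by
  have h : HasFDerivAt (fun q : ℝ × ℝ => (q.1 ^ 2 - q.2 ^ 2) * b q + 2 * q.1 * q.2 * a q) _
      ((0 : ℝ), (0 : ℝ)) :=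
    (imc_hasFDerivAt_sq.mul hb.hasFDerivAt).add (imc_hasFDerivAt_xy.mul ha.hasFDerivAt)
  rw [h.fderiv]
  simp

theorem im_chart_contDiffOn (η : ℝ) (A1 A2 B1 B2 : ℝ → ℝ) (hη : 0 < η)
    (hA1 : ContDiffOn ℝ ∞ A1 (Set.Ioo (-η) η)) (hA2 : ContDiffOn ℝ ∞ A2 (Set.Ioo (-η) η))
    (hB1 : ContDiffOn ℝ ∞ B1 (Set.Ioo (-η) η)) (hB2 : ContDiffOn ℝ ∞ B2 (Set.Ioo (-η) η)) :
    ContDiffOn ℝ ∞ (imChart A1 A2 B1 B2) {q : ℝ × ℝ | q.1 ^ 2 + q.2 ^ 2 < η} := by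
  have h1 := imc_comp_contDiffOn η A1 hη hA1
  have h2 := imc_comp_contDiffOn η A2 hη hA2
  have h3 := imc_comp_contDiffOn η B1 hη hB1
  have h4 := imc_comp_contDiffOn η B2 hη hB2
  have hx : ContDiffOn ℝ ∞ (fun q : ℝ × ℝ => q.1) {q : ℝ × ℝ | q.1 ^ 2 + q.2 ^ 2 < η} :=
    contDiff_fst.contDiffOn
  have hy : ContDiffOn ℝ ∞ (fun q : ℝ × ℝ => q.2) {q : ℝ × ℝ | q.1 ^ 2 + q.2 ^ 2 < η} :=
    contDiff_snd.contDiffOn
  have hsq : ContDiffOn ℝ ∞ (fun q : ℝ × ℝ => q.1 ^ 2 - q.2 ^ 2)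
      {q : ℝ × ℝ | q.1 ^ 2 + q.2 ^ 2 < η} :=
    ((contDiff_fst.pow 2).sub (contDiff_snd.pow 2)).contDiffOn
  have hxy : ContDiffOn ℝ ∞ (fun q : ℝ × ℝ => 2 * q.1 * q.2)
      {q : ℝ × ℝ | q.1 ^ 2 + q.2 ^ 2 < η} :=
    ((contDiff_const.mul contDiff_fst).mul contDiff_snd).contDiffOn
  rw [contDiffOn_euclidean]
  intro i
  fin_cases i
  · exact (hx.mul h1).sub (hy.mul h2)
  · exact (hx.mul h2).add (hy.mul h1)
  · exact (hsq.mul h3).sub (hxy.mul h4)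
  · exact (hsq.mul h4).add (hxy.mul h3)

theorem im_chart_poleIsom (η : ℝ) (A1 A2 B1 B2 : ℝ → ℝ) (hη : 0 < η)
    (hA1 : ContDiffOn ℝ ∞ A1 (Set.Ioo (-η) η)) (hA2 : ContDiffOn ℝ ∞ A2 (Set.Ioo (-η) η))
    (hB1 : ContDiffOn ℝ ∞ B1 (Set.Ioo (-η) η)) (hB2 : ContDiffOn ℝ ∞ B2 (Set.Ioo (-η) η))
    (h0 : A1 0 ^ 2 + A2 0 ^ 2 = 1) : PoleIsom (imChart A1 A2 B1 B2) := by
  have d1 := imc_comp_diffAt η A1 hη hA1
  have d2 := imc_comp_diffAt η A2 hη hA2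
  have d3 := imc_comp_diffAt η B1 hη hB1
  have d4 := imc_comp_diffAt η B2 hη hB2
  have hd : DifferentiableAt ℝ (imChart A1 A2 B1 B2) ((0 : ℝ), (0 : ℝ)) :=
    ((im_chart_contDiffOn η A1 A2 B1 B2 hη hA1 hA2 hB1 hB2).contDiffAt
      (imc_disc_mem η hη)).differentiableAt (by simp)
  have hcoord : ∀ (i : Fin 4) (v : ℝ × ℝ),
      (fderiv ℝ (imChart A1 A2 B1 B2) ((0 : ℝ), (0 : ℝ)) v) i
        = fderiv ℝ (fun q => imChart A1 A2 B1 B2 q i) ((0 : ℝ), (0 : ℝ)) v := by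
    intro i v
    have h := ((hasFDerivWithinAt_euclidean (t := Set.univ)).mp
      hd.hasFDerivAt.hasFDerivWithinAt i).hasFDerivAt Filter.univ_mem
    rw [h.fderiv]
    rfl
  have e0 : (fun q => imChart A1 A2 B1 B2 q 0)
      = fun q : ℝ × ℝ => q.1 * (fun q : ℝ × ℝ => A1 (q.1 ^ 2 + q.2 ^ 2)) q
          - q.2 * (fun q : ℝ × ℝ => A2 (q.1 ^ 2 + q.2 ^ 2)) q := rfl
  have e1 : (fun q => imChart A1 A2 B1 B2 q 1)
      = fun q : ℝ × ℝ => q.1 * (fun q : ℝ × ℝ => A2 (q.1 ^ 2 + q.2 ^ 2)) q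
          + q.2 * (fun q : ℝ × ℝ => A1 (q.1 ^ 2 + q.2 ^ 2)) q := rfl
  have e2 : (fun q => imChart A1 A2 B1 B2 q 2)
      = fun q : ℝ × ℝ => (q.1 ^ 2 - q.2 ^ 2) * (fun q : ℝ × ℝ => B1 (q.1 ^ 2 + q.2 ^ 2)) q
          - 2 * q.1 * q.2 * (fun q : ℝ × ℝ => B2 (q.1 ^ 2 + q.2 ^ 2)) q := rfl
  have e3 : (fun q => imChart A1 A2 B1 B2 q 3)
      = fun q : ℝ × ℝ => (q.1 ^ 2 - q.2 ^ 2) * (fun q : ℝ × ℝ => B2 (q.1 ^ 2 + q.2 ^ 2)) q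
          + 2 * q.1 * q.2 * (fun q : ℝ × ℝ => B1 (q.1 ^ 2 + q.2 ^ 2)) q := rfl
  have hz : (0 : ℝ) ^ 2 + (0 : ℝ) ^ 2 = 0 := by norm_num
  have c0 : ∀ v : ℝ × ℝ, (fderiv ℝ (imChart A1 A2 B1 B2) ((0 : ℝ), (0 : ℝ)) v) 0
      = v.1 * A1 0 - v.2 * A2 0 := by
    intro v
    rw [hcoord, e0, imc_fderiv_lin _ _ d1 d2]
    simp only [hz]
  have c1 : ∀ v : ℝ × ℝ, (fderiv ℝ (imChart A1 A2 B1 B2) ((0 : ℝ), (0 : ℝ)) v) 1
      = v.1 * A2 0 + v.2 * A1 0 := by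
    intro v
    rw [hcoord, e1, imc_fderiv_lin' _ _ d1 d2]
    simp only [hz]
  have c2 : ∀ v : ℝ × ℝ, (fderiv ℝ (imChart A1 A2 B1 B2) ((0 : ℝ), (0 : ℝ)) v) 2 = 0 := by
    intro v
    rw [hcoord, e2, imc_fderiv_quad _ _ d3 d4]
  have c3 : ∀ v : ℝ × ℝ, (fderiv ℝ (imChart A1 A2 B1 B2) ((0 : ℝ), (0 : ℝ)) v) 3 = 0 := by
    intro v
    rw [hcoord, e3, imc_fderiv_quad' _ _ d3 d4]
  unfold PoleIsom
  simp only [PiLp.inner_apply, Fin.sum_univ_four, c0, c1, c2, c3, RCLike.inner_apply,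
    conj_trivial]
  refine ⟨?_, ?_, ?_⟩
  · linear_combination h0
  · ring
  · linear_combination h0

theorem im_chart_polar (A1 A2 B1 B2 b1 b2 d1 d2 : ℝ → ℝ) (s θ : ℝ)
    (h1 : b1 s = s * A1 (s ^ 2)) (h2 : b2 s = s * A2 (s ^ 2))
    (h3 : d1 s = s ^ 2 * B1 (s ^ 2)) (h4 : d2 s = s ^ 2 * B2 (s ^ 2)) :
    Imm.equivMap 1 2 b1 b2 d1 d2 (s, θ)
      = imChart A1 A2 B1 B2 (s * Real.cos θ, s * Real.sin θ) := by
  have hr : (s * Real.cos θ) ^ 2 + (s * Real.sin θ) ^ 2 = s ^ 2 := by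
    linear_combination s ^ 2 * Real.cos_sq_add_sin_sq θ
  have hc2 : Real.cos (2 * θ) = Real.cos θ ^ 2 - Real.sin θ ^ 2 := by
    rw [Real.cos_two_mul']
  have hs2 : Real.sin (2 * θ) = 2 * Real.sin θ * Real.cos θ := Real.sin_two_mul θ
  have g0 : Imm.compC 1 b1 b2 (s, θ)
      = (s * Real.cos θ) * A1 ((s * Real.cos θ) ^ 2 + (s * Real.sin θ) ^ 2)
        - (s * Real.sin θ) * A2 ((s * Real.cos θ) ^ 2 + (s * Real.sin θ) ^ 2) := by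
    show b1 s * Real.cos (1 * θ) - b2 s * Real.sin (1 * θ) = _
    rw [hr, h1, h2, one_mul]
    ring
  have g1 : Imm.compS 1 b1 b2 (s, θ)
      = (s * Real.cos θ) * A2 ((s * Real.cos θ) ^ 2 + (s * Real.sin θ) ^ 2)
        + (s * Real.sin θ) * A1 ((s * Real.cos θ) ^ 2 + (s * Real.sin θ) ^ 2) := by
    show b1 s * Real.sin (1 * θ) + b2 s * Real.cos (1 * θ) = _
    rw [hr, h1, h2, one_mul]
    ring
  have g2 : Imm.compC 2 d1 d2 (s, θ)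
      = ((s * Real.cos θ) ^ 2 - (s * Real.sin θ) ^ 2)
          * B1 ((s * Real.cos θ) ^ 2 + (s * Real.sin θ) ^ 2)
        - 2 * (s * Real.cos θ) * (s * Real.sin θ)
          * B2 ((s * Real.cos θ) ^ 2 + (s * Real.sin θ) ^ 2) := by
    show d1 s * Real.cos (2 * θ) - d2 s * Real.sin (2 * θ) = _
    rw [hr, h3, h4, hc2, hs2]
    ring
  have g3 : Imm.compS 2 d1 d2 (s, θ)
      = ((s * Real.cos θ) ^ 2 - (s * Real.sin θ) ^ 2)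
          * B2 ((s * Real.cos θ) ^ 2 + (s * Real.sin θ) ^ 2)
        + 2 * (s * Real.cos θ) * (s * Real.sin θ)
          * B1 ((s * Real.cos θ) ^ 2 + (s * Real.sin θ) ^ 2) := by
    show d1 s * Real.sin (2 * θ) + d2 s * Real.cos (2 * θ) = _
    rw [hr, h3, h4, hc2, hs2]
    ring
  show WithLp.toLp 2 ![Imm.compC 1 b1 b2 (s, θ), Imm.compS 1 b1 b2 (s, θ),
      Imm.compC 2 d1 d2 (s, θ), Imm.compS 2 d1 d2 (s, θ)] = _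
  rw [g0, g1, g2, g3]
  rfl

end Vale.Agent.H55.Sph
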