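import Vale.Agent.H55.Sph.Defs
import Vale.Agent.H55.EquivImm

/-!
Shared definitions for the sub-rows of row SPH-IMM (from a profile to the immersion).

`g` is the metric profile, `w` the profile with `0 < w < 1`, `φ1, φ2` the two phases.
`imP1, imP2` are the derivatives prescribed for the phases, `imB1 .. imD2` the four real
components fed into `Imm.equivMap 1 2`, `imChart` the Cartesian chart at a pole.
-/

namespace Vale.Agent.H55.Sph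

open scoped ContDiff

/-- The prescribed derivative of the first phase. -/
noncomputable def imP1 (g w : ℝ → ℝ) (x : ℝ) : ℝ :=
  -(√(Dfun (g x) (deriv g x) (w x) (deriv w x)) * √(w x)) / (√(1 - w x) * g x)

/-- The prescribed derivative of the second phase. -/
noncomputable def imP2 (g w : ℝ → ℝ) (x : ℝ) : ℝ :=
  2 * (√(Dfun (g x) (deriv g x) (w x) (deriv w x)) * √(1 - w x)) / (√(w x) * g x)

/-- `ρ₁ cos φ₁` with `ρ₁ = g √(1 - w)`. -/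
noncomputable def imB1 (g w φ1 : ℝ → ℝ) (x : ℝ) : ℝ := g x * √(1 - w x) * Real.cos (φ1 x)

/-- `ρ₁ sin φ₁` with `ρ₁ = g √(1 - w)`. -/
noncomputable def imB2 (g w φ1 : ℝ → ℝ) (x : ℝ) : ℝ := g x * √(1 - w x) * Real.sin (φ1 x)

/-- `ρ₂ cos φ₂` with `ρ₂ = (g / 2) √w`. -/
noncomputable def imD1 (g w φ2 : ℝ → ℝ) (x : ℝ) : ℝ := g x / 2 * √(w x) * Real.cos (φ2 x)

/-- `ρ₂ sin φ₂` with `ρ₂ = (g / 2) √w`. -/
noncomputable def imD2 (g w φ2 : ℝ → ℝ) (x : ℝ) : ℝ := g x / 2 * √(w x) * Real.sin (φ2 x)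

/-- The Cartesian chart at a pole: with `r = x² + y²`,
`(x A1 r - y A2 r, x A2 r + y A1 r, (x² - y²) B1 r - 2 x y B2 r, (x² - y²) B2 r + 2 x y B1 r)`. -/
noncomputable def imChart (A1 A2 B1 B2 : ℝ → ℝ) (q : ℝ × ℝ) : EuclideanSpace ℝ (Fin 4) :=
  WithLp.toLp 2 ![q.1 * A1 (q.1 ^ 2 + q.2 ^ 2) - q.2 * A2 (q.1 ^ 2 + q.2 ^ 2),
    q.1 * A2 (q.1 ^ 2 + q.2 ^ 2) + q.2 * A1 (q.1 ^ 2 + q.2 ^ 2),
    (q.1 ^ 2 - q.2 ^ 2) * B1 (q.1 ^ 2 + q.2 ^ 2) - 2 * q.1 * q.2 * B2 (q.1 ^ 2 + q.2 ^ 2),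
    (q.1 ^ 2 - q.2 ^ 2) * B2 (q.1 ^ 2 + q.2 ^ 2) + 2 * q.1 * q.2 * B1 (q.1 ^ 2 + q.2 ^ 2)]

end Vale.Agent.H55.Sph
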