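import Vale.Agent.H55.Sph.ImDefs

/-!
SUB-ROW IM-EQUIV of row SPH-IMM: local versions of `contDiff_equivMap` and `equivMap_metric`
(file `Vale/Agent/H55/EquivImm.lean`, namespace `Vale.Agent.H55.Imm`).

Copy-adapt the proofs there: `hasFDerivAt_mul_sep`, `hasFDerivAt_compC`, `hasFDerivAt_compS`,
the four `fderiv_comp*` lemmas and `equivMap_metric` only use differentiability of the four
coefficient functions at the point `p.1` (replace `Differentiable` by `DifferentiableAt ... p.1`;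
the term hasDerivAt of hA at p.1 becomes `hA.hasDerivAt`).  Differentiability of `equivMap` at `p` follows
from the four component derivatives (`hasFDerivAt_euclidean` / `differentiableAt_euclidean`, or
`differentiableAt_pi` after unfolding).
For `im_contDiffOn_equivMap`: `contDiffOn_euclidean`, then each component is a sum of products
of `b (q.1)` (use `ContDiffOn.comp` with `contDiffOn_fst` and the maps-to fact
`q ∈ Ioo 0 L ×ˢ univ → q.1 ∈ Ioo 0 L`) and `cos (κ * q.2)`, `sin (κ * q.2)`.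
Helper lemmas: fresh names with stem `imq_` in this file.  Keep the two statements exactly.
-/

namespace Vale.Agent.H55.Sph

open scoped ContDiff

theorem imq_hasFDerivAt_mul_sep (A u : ℝ → ℝ) (p : ℝ × ℝ) (hA : DifferentiableAt ℝ A p.1)
    (hu : Differentiable ℝ u) :
    HasFDerivAt (fun q : ℝ × ℝ => A q.1 * u q.2)
      (A p.1 • (deriv u p.2 • ContinuousLinearMap.snd ℝ ℝ ℝ)
        + u p.2 • (deriv A p.1 • ContinuousLinearMap.fst ℝ ℝ ℝ)) p := by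
  have h1 : HasFDerivAt (fun q : ℝ × ℝ => A q.1) (deriv A p.1 • ContinuousLinearMap.fst ℝ ℝ ℝ) p :=
    hA.hasDerivAt.comp_hasFDerivAt p hasFDerivAt_fst
  have h2 : HasFDerivAt (fun q : ℝ × ℝ => u q.2) (deriv u p.2 • ContinuousLinearMap.snd ℝ ℝ ℝ) p :=
    (hu p.2).hasDerivAt.comp_hasFDerivAt p hasFDerivAt_snd
  exact h1.mul h2

theorem imq_hasFDerivAt_compC (κ : ℝ) (A B : ℝ → ℝ) (p : ℝ × ℝ)
    (hA : DifferentiableAt ℝ A p.1) (hB : DifferentiableAt ℝ B p.1) :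
    HasFDerivAt (Imm.compC κ A B)
      ((A p.1 • (-(κ * Real.sin (κ * p.2)) • ContinuousLinearMap.snd ℝ ℝ ℝ)
          + Real.cos (κ * p.2) • (deriv A p.1 • ContinuousLinearMap.fst ℝ ℝ ℝ))
        - (B p.1 • ((κ * Real.cos (κ * p.2)) • ContinuousLinearMap.snd ℝ ℝ ℝ)
          + Real.sin (κ * p.2) • (deriv B p.1 • ContinuousLinearMap.fst ℝ ℝ ℝ))) p := by
  have h1 := imq_hasFDerivAt_mul_sep A (fun y => Real.cos (κ * y)) p hA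
    (Imm.differentiable_cos_mul κ)
  have h2 := imq_hasFDerivAt_mul_sep B (fun y => Real.sin (κ * y)) p hB
    (Imm.differentiable_sin_mul κ)
  rw [Imm.deriv_cos_mul] at h1
  rw [Imm.deriv_sin_mul] at h2
  exact h1.sub h2

theorem imq_hasFDerivAt_compS (κ : ℝ) (A B : ℝ → ℝ) (p : ℝ × ℝ)
    (hA : DifferentiableAt ℝ A p.1) (hB : DifferentiableAt ℝ B p.1) :
    HasFDerivAt (Imm.compS κ A B)
      ((A p.1 • ((κ * Real.cos (κ * p.2)) • ContinuousLinearMap.snd ℝ ℝ ℝ)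
          + Real.sin (κ * p.2) • (deriv A p.1 • ContinuousLinearMap.fst ℝ ℝ ℝ))
        + (B p.1 • (-(κ * Real.sin (κ * p.2)) • ContinuousLinearMap.snd ℝ ℝ ℝ)
          + Real.cos (κ * p.2) • (deriv B p.1 • ContinuousLinearMap.fst ℝ ℝ ℝ))) p := by
  have h1 := imq_hasFDerivAt_mul_sep A (fun y => Real.sin (κ * y)) p hA
    (Imm.differentiable_sin_mul κ)
  have h2 := imq_hasFDerivAt_mul_sep B (fun y => Real.cos (κ * y)) p hB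
    (Imm.differentiable_cos_mul κ)
  rw [Imm.deriv_sin_mul] at h1
  rw [Imm.deriv_cos_mul] at h2
  exact h1.add h2

theorem imq_fderiv_compC_x (κ : ℝ) (A B : ℝ → ℝ) (p : ℝ × ℝ)
    (hA : DifferentiableAt ℝ A p.1) (hB : DifferentiableAt ℝ B p.1) :
    fderiv ℝ (Imm.compC κ A B) p (1, 0)
      = deriv A p.1 * Real.cos (κ * p.2) - deriv B p.1 * Real.sin (κ * p.2) := by
  rw [(imq_hasFDerivAt_compC κ A B p hA hB).fderiv]
  simp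
  ring

theorem imq_fderiv_compC_y (κ : ℝ) (A B : ℝ → ℝ) (p : ℝ × ℝ)
    (hA : DifferentiableAt ℝ A p.1) (hB : DifferentiableAt ℝ B p.1) :
    fderiv ℝ (Imm.compC κ A B) p (0, 1)
      = -κ * (A p.1 * Real.sin (κ * p.2) + B p.1 * Real.cos (κ * p.2)) := by
  rw [(imq_hasFDerivAt_compC κ A B p hA hB).fderiv]
  simp
  ring

theorem imq_fderiv_compS_x (κ : ℝ) (A B : ℝ → ℝ) (p : ℝ × ℝ)
    (hA : DifferentiableAt ℝ A p.1) (hB : DifferentiableAt ℝ B p.1) :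
    fderiv ℝ (Imm.compS κ A B) p (1, 0)
      = deriv A p.1 * Real.sin (κ * p.2) + deriv B p.1 * Real.cos (κ * p.2) := by
  rw [(imq_hasFDerivAt_compS κ A B p hA hB).fderiv]
  simp
  ring

theorem imq_fderiv_compS_y (κ : ℝ) (A B : ℝ → ℝ) (p : ℝ × ℝ)
    (hA : DifferentiableAt ℝ A p.1) (hB : DifferentiableAt ℝ B p.1) :
    fderiv ℝ (Imm.compS κ A B) p (0, 1)
      = κ * (A p.1 * Real.cos (κ * p.2) - B p.1 * Real.sin (κ * p.2)) := by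
  rw [(imq_hasFDerivAt_compS κ A B p hA hB).fderiv]
  simp
  ring

theorem imq_contDiffOn_compC (κ L : ℝ) (A B : ℝ → ℝ)
    (hA : ContDiffOn ℝ ∞ A (Set.Ioo 0 L)) (hB : ContDiffOn ℝ ∞ B (Set.Ioo 0 L)) :
    ContDiffOn ℝ ∞ (Imm.compC κ A B) (Set.Ioo 0 L ×ˢ Set.univ) := by
  have hm : Set.MapsTo (Prod.fst : ℝ × ℝ → ℝ) (Set.Ioo 0 L ×ˢ Set.univ) (Set.Ioo 0 L) :=
    fun q hq => hq.1
  have hA' : ContDiffOn ℝ ∞ (fun q : ℝ × ℝ => A q.1) (Set.Ioo 0 L ×ˢ Set.univ) :=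
    hA.comp contDiffOn_fst hm
  have hB' : ContDiffOn ℝ ∞ (fun q : ℝ × ℝ => B q.1) (Set.Ioo 0 L ×ˢ Set.univ) :=
    hB.comp contDiffOn_fst hm
  have hc : ContDiffOn ℝ ∞ (fun q : ℝ × ℝ => Real.cos (κ * q.2)) (Set.Ioo 0 L ×ˢ Set.univ) :=
    (by fun_prop : ContDiff ℝ ∞ (fun q : ℝ × ℝ => Real.cos (κ * q.2))).contDiffOn
  have hs : ContDiffOn ℝ ∞ (fun q : ℝ × ℝ => Real.sin (κ * q.2)) (Set.Ioo 0 L ×ˢ Set.univ) :=
    (by fun_prop : ContDiff ℝ ∞ (fun q : ℝ × ℝ => Real.sin (κ * q.2))).contDiffOn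
  exact (hA'.mul hc).sub (hB'.mul hs)

theorem imq_contDiffOn_compS (κ L : ℝ) (A B : ℝ → ℝ)
    (hA : ContDiffOn ℝ ∞ A (Set.Ioo 0 L)) (hB : ContDiffOn ℝ ∞ B (Set.Ioo 0 L)) :
    ContDiffOn ℝ ∞ (Imm.compS κ A B) (Set.Ioo 0 L ×ˢ Set.univ) := by
  have hm : Set.MapsTo (Prod.fst : ℝ × ℝ → ℝ) (Set.Ioo 0 L ×ˢ Set.univ) (Set.Ioo 0 L) :=
    fun q hq => hq.1
  have hA' : ContDiffOn ℝ ∞ (fun q : ℝ × ℝ => A q.1) (Set.Ioo 0 L ×ˢ Set.univ) :=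
    hA.comp contDiffOn_fst hm
  have hB' : ContDiffOn ℝ ∞ (fun q : ℝ × ℝ => B q.1) (Set.Ioo 0 L ×ˢ Set.univ) :=
    hB.comp contDiffOn_fst hm
  have hc : ContDiffOn ℝ ∞ (fun q : ℝ × ℝ => Real.cos (κ * q.2)) (Set.Ioo 0 L ×ˢ Set.univ) :=
    (by fun_prop : ContDiff ℝ ∞ (fun q : ℝ × ℝ => Real.cos (κ * q.2))).contDiffOn
  have hs : ContDiffOn ℝ ∞ (fun q : ℝ × ℝ => Real.sin (κ * q.2)) (Set.Ioo 0 L ×ˢ Set.univ) :=
    (by fun_prop : ContDiff ℝ ∞ (fun q : ℝ × ℝ => Real.sin (κ * q.2))).contDiffOn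
  exact (hA'.mul hs).add (hB'.mul hc)

theorem im_contDiffOn_equivMap (κ1 κ2 L : ℝ) (b1 b2 d1 d2 : ℝ → ℝ)
    (hb1 : ContDiffOn ℝ ∞ b1 (Set.Ioo 0 L)) (hb2 : ContDiffOn ℝ ∞ b2 (Set.Ioo 0 L))
    (hd1 : ContDiffOn ℝ ∞ d1 (Set.Ioo 0 L)) (hd2 : ContDiffOn ℝ ∞ d2 (Set.Ioo 0 L)) :
    ContDiffOn ℝ ∞ (Imm.equivMap κ1 κ2 b1 b2 d1 d2) (Set.Ioo 0 L ×ˢ Set.univ) := by
  rw [contDiffOn_euclidean]
  intro i
  fin_cases i
  · exact imq_contDiffOn_compC κ1 L b1 b2 hb1 hb2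
  · exact imq_contDiffOn_compS κ1 L b1 b2 hb1 hb2
  · exact imq_contDiffOn_compC κ2 L d1 d2 hd1 hd2
  · exact imq_contDiffOn_compS κ2 L d1 d2 hd1 hd2

theorem im_equivMap_metric (κ1 κ2 : ℝ) (b1 b2 d1 d2 : ℝ → ℝ) (p : ℝ × ℝ)
    (hb1 : DifferentiableAt ℝ b1 p.1) (hb2 : DifferentiableAt ℝ b2 p.1)
    (hd1 : DifferentiableAt ℝ d1 p.1) (hd2 : DifferentiableAt ℝ d2 p.1) :
    inner ℝ (fderiv ℝ (Imm.equivMap κ1 κ2 b1 b2 d1 d2) p (1, 0))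
        (fderiv ℝ (Imm.equivMap κ1 κ2 b1 b2 d1 d2) p (1, 0))
      = deriv b1 p.1 ^ 2 + deriv b2 p.1 ^ 2 + deriv d1 p.1 ^ 2 + deriv d2 p.1 ^ 2 ∧
    inner ℝ (fderiv ℝ (Imm.equivMap κ1 κ2 b1 b2 d1 d2) p (1, 0))
        (fderiv ℝ (Imm.equivMap κ1 κ2 b1 b2 d1 d2) p (0, 1))
      = κ1 * (b1 p.1 * deriv b2 p.1 - b2 p.1 * deriv b1 p.1)
        + κ2 * (d1 p.1 * deriv d2 p.1 - d2 p.1 * deriv d1 p.1) ∧
    inner ℝ (fderiv ℝ (Imm.equivMap κ1 κ2 b1 b2 d1 d2) p (0, 1))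
        (fderiv ℝ (Imm.equivMap κ1 κ2 b1 b2 d1 d2) p (0, 1))
      = κ1 ^ 2 * (b1 p.1 ^ 2 + b2 p.1 ^ 2) + κ2 ^ 2 * (d1 p.1 ^ 2 + d2 p.1 ^ 2) := by
  have hd : DifferentiableAt ℝ (Imm.equivMap κ1 κ2 b1 b2 d1 d2) p := by
    rw [differentiableAt_euclidean]
    intro i
    fin_cases i
    · exact (imq_hasFDerivAt_compC κ1 b1 b2 p hb1 hb2).differentiableAt
    · exact (imq_hasFDerivAt_compS κ1 b1 b2 p hb1 hb2).differentiableAt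
    · exact (imq_hasFDerivAt_compC κ2 d1 d2 p hd1 hd2).differentiableAt
    · exact (imq_hasFDerivAt_compS κ2 d1 d2 p hd1 hd2).differentiableAt
  have hcoord : ∀ (i : Fin 4) (v : ℝ × ℝ),
      (fderiv ℝ (Imm.equivMap κ1 κ2 b1 b2 d1 d2) p v) i
        = fderiv ℝ (fun q => Imm.equivMap κ1 κ2 b1 b2 d1 d2 q i) p v := by
    intro i v
    have h := ((hasFDerivWithinAt_euclidean (t := Set.univ)).mp
      hd.hasFDerivAt.hasFDerivWithinAt i).hasFDerivAt Filter.univ_mem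
    rw [h.fderiv]
    rfl
  have e0 : (fun q => Imm.equivMap κ1 κ2 b1 b2 d1 d2 q 0) = Imm.compC κ1 b1 b2 := rfl
  have e1 : (fun q => Imm.equivMap κ1 κ2 b1 b2 d1 d2 q 1) = Imm.compS κ1 b1 b2 := rfl
  have e2 : (fun q => Imm.equivMap κ1 κ2 b1 b2 d1 d2 q 2) = Imm.compC κ2 d1 d2 := rfl
  have e3 : (fun q => Imm.equivMap κ1 κ2 b1 b2 d1 d2 q 3) = Imm.compS κ2 d1 d2 := rfl
  have hc1 := Real.cos_sq_add_sin_sq (κ1 * p.2)
  have hc2 := Real.cos_sq_add_sin_sq (κ2 * p.2)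
  simp only [PiLp.inner_apply, Fin.sum_univ_four, hcoord, e0, e1, e2, e3,
    imq_fderiv_compC_x κ1 b1 b2 p hb1 hb2, imq_fderiv_compS_x κ1 b1 b2 p hb1 hb2,
    imq_fderiv_compC_x κ2 d1 d2 p hd1 hd2, imq_fderiv_compS_x κ2 d1 d2 p hd1 hd2,
    imq_fderiv_compC_y κ1 b1 b2 p hb1 hb2, imq_fderiv_compS_y κ1 b1 b2 p hb1 hb2,
    imq_fderiv_compC_y κ2 d1 d2 p hd1 hd2, imq_fderiv_compS_y κ2 d1 d2 p hd1 hd2,
    RCLike.inner_apply, conj_trivial]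
  refine ⟨?_, ?_, ?_⟩
  · linear_combination (deriv b1 p.1 ^ 2 + deriv b2 p.1 ^ 2) * hc1
      + (deriv d1 p.1 ^ 2 + deriv d2 p.1 ^ 2) * hc2
  · linear_combination (κ1 * (b1 p.1 * deriv b2 p.1 - b2 p.1 * deriv b1 p.1)) * hc1
      + (κ2 * (d1 p.1 * deriv d2 p.1 - d2 p.1 * deriv d1 p.1)) * hc2
  · linear_combination (κ1 ^ 2 * (b1 p.1 ^ 2 + b2 p.1 ^ 2)) * hc1
      + (κ2 ^ 2 * (d1 p.1 ^ 2 + d2 p.1 ^ 2)) * hc2

end Vale.Agent.H55.Sph
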