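import Vale.Agent.H55.Sph.ImDefs

/-!
SUB-ROW IM-METRIC of row SPH-IMM: the pointwise first fundamental form of the four components
`imB1, imB2, imD1, imD2` (ImDefs.lean).  Helper lemmas: fresh names with stem `imm_` in this
file.  Keep the statement exactly.

Write `g = g s`, `g' = deriv g s`, `w = w s`, `w' = deriv w s`, `u = √(1 - w)`, `v = √w`,
`D = Dfun g g' w w'`, `e = √D` (so `u, v, e, g > 0`, `u² = 1 - w`, `v² = w`, `e² = D`).
Derivatives at `s`: `√(1 - w x)` has derivative `-w' / (2 u)`, `√(w x)` has `w' / (2 v)`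
(`HasDerivAt.sqrt`), so `ρ1 = g √(1 - w)` has `ρ1' = g' u - g w' / (2 u)` and
`ρ2 = g / 2 * √w` has `ρ2' = g' / 2 * v + g w' / (4 v)`; the phases have
`φ1' = -(e v) / (u g)` and `φ2' = 2 (e u) / (v g)` (hypotheses, after unfolding `imP1, imP2`).
`imB1 = ρ1 cos φ1` has derivative `ρ1' cos φ1 - ρ1 sin φ1 φ1'`, and so on.  Then
  sum of the four squared derivatives `= ρ1'² + ρ1² φ1'² + ρ2'² + ρ2² φ2'²
      = (ρ1'² + ρ2'²) + e² v² + e² u² = (1 - D) + D = 1`,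
since `ρ1'² + ρ2'² = g'² (1 - 3 w / 4) - 3/4 g g' w' + g² w'² (1 + 3 w) / (16 w (1 - w)) = 1 - D`
(this is the definition of `Dfun`);
  `1 * (b1 b2' - b2 b1') + 2 * (d1 d2' - d2 d1') = ρ1² φ1' + 2 ρ2² φ2' = -g e u v + g e u v = 0`;
  `1² (b1² + b2²) + 2² (d1² + d2²) = ρ1² + 4 ρ2² = g² (1 - w) + g² w = g²`.
Suggestion: first prove the three identities as pure real algebra in the letters
`g g' w' u v e c1 s1 c2 s2` with hypotheses `u² + v² = 1`, `c1² + s1² = 1`, `c2² + s2² = 1`,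
`e² = Dfun g g' (v²) w'`, `u, v, g ≠ 0` (replace `w` by `v²` and `1 - w` by `u²` first).
-/

namespace Vale.Agent.H55.Sph

open scoped ContDiff

theorem imm_rot (a b p c s : ℝ) (h : c ^ 2 + s ^ 2 = 1) :
    (a * c + b * (-s * p)) ^ 2 + (a * s + b * (c * p)) ^ 2 = a ^ 2 + b ^ 2 * p ^ 2 := by
  linear_combination (a ^ 2 + b ^ 2 * p ^ 2) * h

theorem imm_area (a b p c s : ℝ) (h : c ^ 2 + s ^ 2 = 1) :
    b * c * (a * s + b * (c * p)) - b * s * (a * c + b * (-s * p)) = b ^ 2 * p := by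
  linear_combination (b ^ 2 * p) * h

theorem imm_D (G G' W W' : ℝ) (hW0 : W ≠ 0) (hW1 : 1 - W ≠ 0) :
    G' ^ 2 * (1 - W) - G * G' * W' + G ^ 2 * W' ^ 2 / (4 * (1 - W)) + G' ^ 2 * W / 4
      + G * G' * W' / 4 + G ^ 2 * W' ^ 2 / (16 * W) + Dfun G G' W W' = 1 := by
  unfold Dfun
  field_simp
  ring

theorem imm_alg (G G' W W' u v e D : ℝ) (hG : G ≠ 0) (hu : u ≠ 0) (hv : v ≠ 0)
    (hW0 : W ≠ 0) (hW1 : 1 - W ≠ 0) (hu2 : u ^ 2 = 1 - W) (hv2 : v ^ 2 = W) (he2 : e ^ 2 = D)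
    (hD : D = Dfun G G' W W') :
    (G' * u + G * (-W' / (2 * u))) ^ 2 + (G * u) ^ 2 * (-(e * v) / (u * G)) ^ 2
      + ((G' / 2 * v + G / 2 * (W' / (2 * v))) ^ 2
        + (G / 2 * v) ^ 2 * (2 * (e * u) / (v * G)) ^ 2) = 1 ∧
    (G * u) ^ 2 * (-(e * v) / (u * G)) + 2 * ((G / 2 * v) ^ 2 * (2 * (e * u) / (v * G))) = 0 ∧
    (G * u) ^ 2 + 4 * (G / 2 * v) ^ 2 = G ^ 2 := by
  have h1 : (G' * u + G * (-W' / (2 * u))) ^ 2
      = G' ^ 2 * (1 - W) - G * G' * W' + G ^ 2 * W' ^ 2 / (4 * (1 - W)) := by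
    rw [← hu2]
    field_simp
    ring
  have h2 : (G * u) ^ 2 * (-(e * v) / (u * G)) ^ 2 = D * W := by
    rw [← he2, ← hv2]
    field_simp
  have h3 : (G' / 2 * v + G / 2 * (W' / (2 * v))) ^ 2
      = G' ^ 2 * W / 4 + G * G' * W' / 4 + G ^ 2 * W' ^ 2 / (16 * W) := by
    rw [← hv2]
    field_simp
    ring
  have h4 : (G / 2 * v) ^ 2 * (2 * (e * u) / (v * G)) ^ 2 = D * (1 - W) := by
    rw [← he2, ← hu2]
    field_simp
  refine ⟨?_, ?_, ?_⟩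
  · rw [h1, h2, h3, h4]
    have h5 := imm_D G G' W W' hW0 hW1
    rw [← hD] at h5
    linear_combination h5
  · field_simp
    ring
  · have h6 : (G * u) ^ 2 + 4 * (G / 2 * v) ^ 2 = G ^ 2 * (u ^ 2 + v ^ 2) := by ring
    rw [h6, hu2, hv2]
    ring

theorem im_metric_point (g w φ1 φ2 : ℝ → ℝ) (s : ℝ)
    (hg : DifferentiableAt ℝ g s) (hw : DifferentiableAt ℝ w s)
    (hg0 : 0 < g s) (hw0 : 0 < w s) (hw1 : w s < 1)
    (hD : 0 < Dfun (g s) (deriv g s) (w s) (deriv w s))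
    (hφ1 : HasDerivAt φ1 (imP1 g w s) s) (hφ2 : HasDerivAt φ2 (imP2 g w s) s) :
    DifferentiableAt ℝ (imB1 g w φ1) s ∧ DifferentiableAt ℝ (imB2 g w φ1) s ∧
    DifferentiableAt ℝ (imD1 g w φ2) s ∧ DifferentiableAt ℝ (imD2 g w φ2) s ∧
    deriv (imB1 g w φ1) s ^ 2 + deriv (imB2 g w φ1) s ^ 2 + deriv (imD1 g w φ2) s ^ 2
      + deriv (imD2 g w φ2) s ^ 2 = 1 ∧
    1 * (imB1 g w φ1 s * deriv (imB2 g w φ1) s - imB2 g w φ1 s * deriv (imB1 g w φ1) s)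
      + 2 * (imD1 g w φ2 s * deriv (imD2 g w φ2) s - imD2 g w φ2 s * deriv (imD1 g w φ2) s)
      = 0 ∧
    1 ^ 2 * (imB1 g w φ1 s ^ 2 + imB2 g w φ1 s ^ 2)
      + 2 ^ 2 * (imD1 g w φ2 s ^ 2 + imD2 g w φ2 s ^ 2) = g s ^ 2 := by
  have h1w : (0 : ℝ) < 1 - w s := by linarith
  have hu0 : √(1 - w s) ≠ 0 := (Real.sqrt_pos.2 h1w).ne'
  have hv0 : √(w s) ≠ 0 := (Real.sqrt_pos.2 hw0).ne'
  have hu2 : √(1 - w s) ^ 2 = 1 - w s := Real.sq_sqrt h1w.le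
  have hv2 : √(w s) ^ 2 = w s := Real.sq_sqrt hw0.le
  have he2 : √(Dfun (g s) (deriv g s) (w s) (deriv w s)) ^ 2
      = Dfun (g s) (deriv g s) (w s) (deriv w s) := Real.sq_sqrt hD.le
  have hg' : HasDerivAt g (deriv g s) s := hg.hasDerivAt
  have hw' : HasDerivAt w (deriv w s) s := hw.hasDerivAt
  have hsub : HasDerivAt (fun x => 1 - w x) (-deriv w s) s := hw'.const_sub 1
  have hu : HasDerivAt (fun x => √(1 - w x)) (-deriv w s / (2 * √(1 - w s))) s :=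
    hsub.sqrt h1w.ne'
  have hv : HasDerivAt (fun x => √(w x)) (deriv w s / (2 * √(w s))) s := hw'.sqrt hw0.ne'
  have hρ1 : HasDerivAt (fun x => g x * √(1 - w x))
      (deriv g s * √(1 - w s) + g s * (-deriv w s / (2 * √(1 - w s)))) s := hg'.mul hu
  have hρ2 : HasDerivAt (fun x => g x / 2 * √(w x))
      (deriv g s / 2 * √(w s) + g s / 2 * (deriv w s / (2 * √(w s)))) s :=
    (hg'.div_const 2).mul hv
  have hc1 : HasDerivAt (fun x => Real.cos (φ1 x)) (-Real.sin (φ1 s) * imP1 g w s) s := hφ1.cos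
  have hs1 : HasDerivAt (fun x => Real.sin (φ1 x)) (Real.cos (φ1 s) * imP1 g w s) s := hφ1.sin
  have hc2 : HasDerivAt (fun x => Real.cos (φ2 x)) (-Real.sin (φ2 s) * imP2 g w s) s := hφ2.cos
  have hs2 : HasDerivAt (fun x => Real.sin (φ2 x)) (Real.cos (φ2 s) * imP2 g w s) s := hφ2.sin
  have hB1 : HasDerivAt (imB1 g w φ1)
      ((deriv g s * √(1 - w s) + g s * (-deriv w s / (2 * √(1 - w s)))) * Real.cos (φ1 s)
        + g s * √(1 - w s) * (-Real.sin (φ1 s) * imP1 g w s)) s := hρ1.mul hc1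
  have hB2 : HasDerivAt (imB2 g w φ1)
      ((deriv g s * √(1 - w s) + g s * (-deriv w s / (2 * √(1 - w s)))) * Real.sin (φ1 s)
        + g s * √(1 - w s) * (Real.cos (φ1 s) * imP1 g w s)) s := hρ1.mul hs1
  have hD1 : HasDerivAt (imD1 g w φ2)
      ((deriv g s / 2 * √(w s) + g s / 2 * (deriv w s / (2 * √(w s)))) * Real.cos (φ2 s)
        + g s / 2 * √(w s) * (-Real.sin (φ2 s) * imP2 g w s)) s := hρ2.mul hc2
  have hD2 : HasDerivAt (imD2 g w φ2)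
      ((deriv g s / 2 * √(w s) + g s / 2 * (deriv w s / (2 * √(w s)))) * Real.sin (φ2 s)
        + g s / 2 * √(w s) * (Real.cos (φ2 s) * imP2 g w s)) s := hρ2.mul hs2
  have ht1 : Real.cos (φ1 s) ^ 2 + Real.sin (φ1 s) ^ 2 = 1 := Real.cos_sq_add_sin_sq (φ1 s)
  have ht2 : Real.cos (φ2 s) ^ 2 + Real.sin (φ2 s) ^ 2 = 1 := Real.cos_sq_add_sin_sq (φ2 s)
  obtain ⟨ha1, ha2, ha3⟩ := imm_alg (g s) (deriv g s) (w s) (deriv w s) (√(1 - w s)) (√(w s))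
    (√(Dfun (g s) (deriv g s) (w s) (deriv w s))) (Dfun (g s) (deriv g s) (w s) (deriv w s))
    hg0.ne' hu0 hv0 hw0.ne' h1w.ne' hu2 hv2 he2 rfl
  have hP1 : imP1 g w s = -(√(Dfun (g s) (deriv g s) (w s) (deriv w s)) * √(w s))
      / (√(1 - w s) * g s) := rfl
  have hP2 : imP2 g w s = 2 * (√(Dfun (g s) (deriv g s) (w s) (deriv w s)) * √(1 - w s))
      / (√(w s) * g s) := rfl
  rw [← hP1, ← hP2] at ha1 ha2
  refine ⟨hB1.differentiableAt, hB2.differentiableAt, hD1.differentiableAt,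
    hD2.differentiableAt, ?_, ?_, ?_⟩
  · rw [hB1.deriv, hB2.deriv, hD1.deriv, hD2.deriv, add_assoc,
      imm_rot _ _ _ _ _ ht1, imm_rot _ _ _ _ _ ht2]
    exact ha1
  · rw [hB1.deriv, hB2.deriv, hD1.deriv, hD2.deriv]
    have e1 : imB1 g w φ1 s = g s * √(1 - w s) * Real.cos (φ1 s) := rfl
    have e2 : imB2 g w φ1 s = g s * √(1 - w s) * Real.sin (φ1 s) := rfl
    have e3 : imD1 g w φ2 s = g s / 2 * √(w s) * Real.cos (φ2 s) := rfl
    have e4 : imD2 g w φ2 s = g s / 2 * √(w s) * Real.sin (φ2 s) := rfl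
    rw [e1, e2, e3, e4, imm_area _ _ _ _ _ ht1, imm_area _ _ _ _ _ ht2, one_mul]
    exact ha2
  · have e1 : imB1 g w φ1 s = g s * √(1 - w s) * Real.cos (φ1 s) := rfl
    have e2 : imB2 g w φ1 s = g s * √(1 - w s) * Real.sin (φ1 s) := rfl
    have e3 : imD1 g w φ2 s = g s / 2 * √(w s) * Real.cos (φ2 s) := rfl
    have e4 : imD2 g w φ2 s = g s / 2 * √(w s) * Real.sin (φ2 s) := rfl
    rw [e1, e2, e3, e4]
    linear_combination ha3 + (g s * √(1 - w s)) ^ 2 * ht1 + 4 * (g s / 2 * √(w s)) ^ 2 * ht2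

end Vale.Agent.H55.Sph
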