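import Vale.Agent.H55.Sph.ImPrim

/-!
SUB-ROW IM-POLE of row SPH-IMM: the germs of the four components at a pole.  Uses
`im_phase_germ` (ImPrim.lean) as stated, whether or not its proof has landed.  Helper lemmas:
fresh names with stem `imo_` in this file.  Keep the statement exactly.

Here `G, W, DD, ψ1, ψ2` stand for the metric profile, the profile `w`, the deficit and the two
phases in the variable `s` = distance from the pole; `σ = 1` at the north pole, `σ = -1` at the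
south pole (any real `σ` works).

Proof.  Put `U t = √(1 - t * om t)`, `f1 t = √(Q t) * √(om t) / (U t * H t)`,
`f2 t = √(Q t) * U t / (√(om t) * H t)`: smooth on `Ioo (-η) η` (`ContDiffOn.sqrt`, the radicands
and `H` are positive there by `pos`, note `|t| < η ↔ t ∈ Ioo (-η) η`).  For `0 < s`, `s ^ 2 < η`
(write `t = s ^ 2`, then `|t| < η`): `√(DD s) = s ^ 3 * √(Q t)` (`s ^ 6 * Q t = (s ^ 3) ^ 2 * Q t`),
`√(W s) = s * √(om t)`, `√(1 - W s) = U t`, `G s = s * H t`, hence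
  `-(√(DD s) * √(W s)) / (√(1 - W s) * G s) = -(s ^ 3 * f1 t) = s * (-(t * f1 t))`,
  `2 * (√(DD s) * √(1 - W s)) / (√(W s) * G s) = s * (2 * f2 t)`.
So `im_phase_germ` applied to `fun t => σ * (-(t * f1 t))` resp. `fun t => σ * (2 * f2 t)` gives
`c1, F1` with `ψ1 s = c1 + F1 (s ^ 2)` and `c2, F2` with `ψ2 s = c2 + F2 (s ^ 2)`.  Take
  `A1 t = H t * U t * cos (c1 + F1 t)`, `A2 t = H t * U t * sin (c1 + F1 t)`,
  `B1 t = H t / 2 * √(om t) * cos (c2 + F2 t)`, `B2 t = H t / 2 * √(om t) * sin (c2 + F2 t)`.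
`A1 0 ^ 2 + A2 0 ^ 2 = H 0 ^ 2 * U 0 ^ 2 = 1` (`U 0 = √1 = 1`).
-/

namespace Vale.Agent.H55.Sph

open scoped ContDiff

theorem im_pole (η σ : ℝ) (H om Q G W DD ψ1 ψ2 : ℝ → ℝ) (hη : 0 < η)
    (sH : ContDiffOn ℝ ∞ H (Set.Ioo (-η) η)) (som : ContDiffOn ℝ ∞ om (Set.Ioo (-η) η))
    (sQ : ContDiffOn ℝ ∞ Q (Set.Ioo (-η) η))
    (pos : ∀ t, |t| < η → 0 < H t ∧ 0 < om t ∧ 0 < Q t ∧ t * om t < 1)
    (H0 : H 0 = 1)
    (hG : ∀ s, 0 < s → s ^ 2 < η → G s = s * H (s ^ 2))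
    (hW : ∀ s, 0 < s → s ^ 2 < η → W s = s ^ 2 * om (s ^ 2))
    (hDD : ∀ s, 0 < s → s ^ 2 < η → DD s = s ^ 6 * Q (s ^ 2))
    (hψ1 : ∀ s, 0 < s → s ^ 2 < η →
      HasDerivAt ψ1 (σ * (-(√(DD s) * √(W s)) / (√(1 - W s) * G s))) s)
    (hψ2 : ∀ s, 0 < s → s ^ 2 < η →
      HasDerivAt ψ2 (σ * (2 * (√(DD s) * √(1 - W s)) / (√(W s) * G s))) s) :
    ∃ A1 A2 B1 B2 : ℝ → ℝ,
      ContDiffOn ℝ ∞ A1 (Set.Ioo (-η) η) ∧ ContDiffOn ℝ ∞ A2 (Set.Ioo (-η) η) ∧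
      ContDiffOn ℝ ∞ B1 (Set.Ioo (-η) η) ∧ ContDiffOn ℝ ∞ B2 (Set.Ioo (-η) η) ∧
      A1 0 ^ 2 + A2 0 ^ 2 = 1 ∧
      ∀ s, 0 < s → s ^ 2 < η →
        G s * √(1 - W s) * Real.cos (ψ1 s) = s * A1 (s ^ 2) ∧
        G s * √(1 - W s) * Real.sin (ψ1 s) = s * A2 (s ^ 2) ∧
        G s / 2 * √(W s) * Real.cos (ψ2 s) = s ^ 2 * B1 (s ^ 2) ∧
        G s / 2 * √(W s) * Real.sin (ψ2 s) = s ^ 2 * B2 (s ^ 2) := by
  classical
  set I : Set ℝ := Set.Ioo (-η) η with hI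
  have memI : ∀ t, t ∈ I ↔ |t| < η := fun t => by
    rw [hI, Set.mem_Ioo, abs_lt]
  have posI : ∀ t ∈ I, 0 < H t ∧ 0 < om t ∧ 0 < Q t ∧ t * om t < 1 := fun t ht =>
    pos t ((memI t).mp ht)
  -- the auxiliary smooth functions
  set U : ℝ → ℝ := fun t => √(1 - t * om t) with hU
  set f1 : ℝ → ℝ := fun t => √(Q t) * √(om t) / (U t * H t) with hf1
  set f2 : ℝ → ℝ := fun t => √(Q t) * U t / (√(om t) * H t) with hf2
  have sid : ContDiffOn ℝ ∞ (fun t : ℝ => t) I := contDiffOn_id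
  have sU : ContDiffOn ℝ ∞ U I := by
    refine ContDiffOn.sqrt (contDiffOn_const.sub (sid.mul som)) (fun t ht => ?_)
    have := (posI t ht).2.2.2
    linarith
  have ssQ : ContDiffOn ℝ ∞ (fun t => √(Q t)) I :=
    ContDiffOn.sqrt sQ (fun t ht => (posI t ht).2.2.1.ne')
  have ssom : ContDiffOn ℝ ∞ (fun t => √(om t)) I :=
    ContDiffOn.sqrt som (fun t ht => (posI t ht).2.1.ne')
  have Upos : ∀ t ∈ I, 0 < U t := fun t ht => by
    have := (posI t ht).2.2.2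
    exact Real.sqrt_pos.mpr (by linarith)
  have sf1 : ContDiffOn ℝ ∞ f1 I := by
    refine (ssQ.mul ssom).div (sU.mul sH) (fun t ht => ?_)
    exact (mul_pos (Upos t ht) (posI t ht).1).ne'
  have sf2 : ContDiffOn ℝ ∞ f2 I := by
    refine (ssQ.mul sU).div (ssom.mul sH) (fun t ht => ?_)
    exact (mul_pos (Real.sqrt_pos.mpr (posI t ht).2.1) (posI t ht).1).ne'
  -- the pointwise identities for 0 < s, s ^ 2 < η
  have key : ∀ s, 0 < s → s ^ 2 < η →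
      s ^ 2 ∈ I ∧ √(DD s) = s ^ 3 * √(Q (s ^ 2)) ∧ √(W s) = s * √(om (s ^ 2)) ∧
        √(1 - W s) = U (s ^ 2) ∧ G s = s * H (s ^ 2) := by
    intro s hs hs2
    have ht : s ^ 2 ∈ I := (memI _).mpr (by rw [abs_of_nonneg (sq_nonneg s)]; exact hs2)
    refine ⟨ht, ?_, ?_, ?_, hG s hs hs2⟩
    · rw [hDD s hs hs2]
      have e : s ^ 6 * Q (s ^ 2) = (s ^ 3) ^ 2 * Q (s ^ 2) := by ring
      rw [e, Real.sqrt_mul (sq_nonneg _), Real.sqrt_sq (by positivity)]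
    · rw [hW s hs hs2, Real.sqrt_mul (sq_nonneg _), Real.sqrt_sq hs.le]
    · rw [hW s hs hs2]
  -- the two phase germs
  have hg1 : ContDiffOn ℝ ∞ (fun t => σ * (-(t * f1 t))) I :=
    contDiffOn_const.mul (sid.mul sf1).neg
  have hg2 : ContDiffOn ℝ ∞ (fun t => σ * (2 * f2 t)) I :=
    contDiffOn_const.mul (contDiffOn_const.mul sf2)
  have hd1 : ∀ s, 0 < s → s ^ 2 < η →
      HasDerivAt ψ1 (s * (fun t => σ * (-(t * f1 t))) (s ^ 2)) s := by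
    intro s hs hs2
    obtain ⟨ht, e1, e2, e3, e4⟩ := key s hs hs2
    refine (hψ1 s hs hs2).congr_deriv ?_
    have hUp := Upos _ ht
    have hHp := (posI _ ht).1
    rw [e1, e2, e3, e4]
    simp only [hf1]
    field_simp
  have hd2 : ∀ s, 0 < s → s ^ 2 < η →
      HasDerivAt ψ2 (s * (fun t => σ * (2 * f2 t)) (s ^ 2)) s := by
    intro s hs hs2
    obtain ⟨ht, e1, e2, e3, e4⟩ := key s hs hs2
    refine (hψ2 s hs hs2).congr_deriv ?_
    have hUp := Upos _ ht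
    have hHp := (posI _ ht).1
    have hop : 0 < √(om (s ^ 2)) := Real.sqrt_pos.mpr (posI _ ht).2.1
    rw [e1, e2, e3, e4]
    simp only [hf2]
    field_simp
  obtain ⟨c1, F1, sF1, hF1⟩ := im_phase_germ η (fun t => σ * (-(t * f1 t))) ψ1 hη hg1 hd1
  obtain ⟨c2, F2, sF2, hF2⟩ := im_phase_germ η (fun t => σ * (2 * f2 t)) ψ2 hη hg2 hd2
  have sa1 : ContDiffOn ℝ ∞ (fun t => c1 + F1 t) I := contDiffOn_const.add sF1
  have sa2 : ContDiffOn ℝ ∞ (fun t => c2 + F2 t) I := contDiffOn_const.add sF2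
  refine ⟨fun t => H t * U t * Real.cos (c1 + F1 t), fun t => H t * U t * Real.sin (c1 + F1 t),
    fun t => H t / 2 * √(om t) * Real.cos (c2 + F2 t),
    fun t => H t / 2 * √(om t) * Real.sin (c2 + F2 t), ?_, ?_, ?_, ?_, ?_, ?_⟩
  · exact (sH.mul sU).mul (Real.contDiff_cos.comp_contDiffOn sa1)
  · exact (sH.mul sU).mul (Real.contDiff_sin.comp_contDiffOn sa1)
  · exact ((sH.div_const 2).mul ssom).mul (Real.contDiff_cos.comp_contDiffOn sa2)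
  · exact ((sH.div_const 2).mul ssom).mul (Real.contDiff_sin.comp_contDiffOn sa2)
  · have hU0 : U 0 = 1 := by
      simp only [hU, zero_mul, sub_zero, Real.sqrt_one]
    show (H 0 * U 0 * Real.cos (c1 + F1 0)) ^ 2 + (H 0 * U 0 * Real.sin (c1 + F1 0)) ^ 2 = 1
    rw [H0, hU0]
    have := Real.cos_sq_add_sin_sq (c1 + F1 0)
    linarith [this]
  · intro s hs hs2
    obtain ⟨ht, e1, e2, e3, e4⟩ := key s hs hs2
    rw [hF1 s hs hs2, hF2 s hs hs2, e2, e3, e4]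
    refine ⟨?_, ?_, ?_, ?_⟩ <;> ring

end Vale.Agent.H55.Sph
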