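import Mathlib

/-!
SUB-ROW IM-PRIM of row SPH-IMM: primitives on open intervals and the phase germ lemma.
Imports Mathlib only.

`im_primitive`: if `Ioo a b` is empty take `F = 0`; otherwise `c = (a + b) / 2` and
`F s = ∫ x in c..s, f x`.  For `s ∈ Ioo a b`: `intervalIntegral.integral_hasDerivAt_right`
(`f` is continuous on the open set `Ioo a b ⊇ uIcc c s`, so interval integrable, strongly
measurable at `𝓝 s` and continuous at `s`).  Smoothness:
`contDiffOn_infty_iff_deriv_of_isOpen isOpen_Ioo` and `deriv F = f` on `Ioo a b`.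

`im_phase_germ`: let `F₀` be a primitive of `t ↦ f t / 2` on `Ioo (-η) η` (`im_primitive`).
For `s ∈ I = {s | 0 < s ∧ s ^ 2 < η}` (an open interval, `I = Ioo 0 (√η)`) the function
`s ↦ ψ s - F₀ (s ^ 2)` has derivative `s * f (s ^ 2) - f (s ^ 2) / 2 * (2 * s) = 0`, so it is
constant on `I`.
-/

namespace Vale.Agent.H55.Sph

open scoped ContDiff

theorem im_primitive (a b : ℝ) (f : ℝ → ℝ) (hf : ContDiffOn ℝ ∞ f (Set.Ioo a b)) :
    ∃ F : ℝ → ℝ, ContDiffOn ℝ ∞ F (Set.Ioo a b) ∧ ∀ s ∈ Set.Ioo a b, HasDerivAt F (f s) s := by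
  by_cases hab : a < b
  · have hc : (a + b) / 2 ∈ Set.Ioo a b := ⟨by linarith, by linarith⟩
    have hcont : ContinuousOn f (Set.Ioo a b) := hf.continuousOn
    have hder : ∀ s ∈ Set.Ioo a b,
        HasDerivAt (fun u => ∫ x in ((a + b) / 2)..u, f x) (f s) s := by
      intro s hs
      have hsub : Set.uIcc ((a + b) / 2) s ⊆ Set.Ioo a b :=
        Set.ordConnected_Ioo.uIcc_subset hc hs
      have hint : IntervalIntegrable f MeasureTheory.volume ((a + b) / 2) s :=
        (hcont.mono hsub).intervalIntegrable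
      have hmeas : StronglyMeasurableAtFilter f (nhds s) MeasureTheory.volume :=
        hcont.stronglyMeasurableAtFilter isOpen_Ioo s hs
      have hcs : ContinuousAt f s := hcont.continuousAt (isOpen_Ioo.mem_nhds hs)
      exact intervalIntegral.integral_hasDerivAt_right hint hmeas hcs
    refine ⟨fun u => ∫ x in ((a + b) / 2)..u, f x, ?_, hder⟩
    rw [contDiffOn_infty_iff_deriv_of_isOpen isOpen_Ioo]
    refine ⟨fun s hs => (hder s hs).differentiableAt.differentiableWithinAt, ?_⟩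
    exact hf.congr (fun s hs => (hder s hs).deriv)
  · have hempty : Set.Ioo a b = ∅ := Set.Ioo_eq_empty hab
    refine ⟨fun _ => 0, ?_, ?_⟩
    · rw [hempty]
      exact contDiffOn_const
    · intro s hs
      rw [hempty] at hs
      exact absurd hs (Set.notMem_empty s)

theorem im_phase_germ (η : ℝ) (f ψ : ℝ → ℝ) (hη : 0 < η)
    (hf : ContDiffOn ℝ ∞ f (Set.Ioo (-η) η))
    (hψ : ∀ s, 0 < s → s ^ 2 < η → HasDerivAt ψ (s * f (s ^ 2)) s) :
    ∃ (c : ℝ) (F : ℝ → ℝ), ContDiffOn ℝ ∞ F (Set.Ioo (-η) η) ∧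
      ∀ s, 0 < s → s ^ 2 < η → ψ s = c + F (s ^ 2) := by
  have _ := hη
  have hf2 : ContDiffOn ℝ ∞ (fun t => f t / 2) (Set.Ioo (-η) η) := hf.div_const 2
  obtain ⟨F, hFs, hFd⟩ := im_primitive (-η) η (fun t => f t / 2) hf2
  have hmem : ∀ s ∈ Set.Ioo 0 (Real.sqrt η), 0 < s ∧ s ^ 2 < η := by
    intro s hs
    exact ⟨hs.1, (Real.lt_sqrt hs.1.le).mp hs.2⟩
  have hder : ∀ s ∈ Set.Ioo 0 (Real.sqrt η),
      HasDerivAt (fun s => ψ s - F (s ^ 2)) 0 s := by
    intro s hs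
    obtain ⟨h0, h2⟩ := hmem s hs
    have hs2 : s ^ 2 ∈ Set.Ioo (-η) η := ⟨by nlinarith, h2⟩
    have h1 : HasDerivAt (fun s : ℝ => s ^ 2) (2 * s) s := by
      have h := hasDerivAt_pow 2 s
      simpa using h
    have h3 : HasDerivAt (fun s : ℝ => F (s ^ 2)) (f (s ^ 2) / 2 * (2 * s)) s :=
      HasDerivAt.comp s (hFd (s ^ 2) hs2) h1
    have h4 := (hψ s h0 h2).sub h3
    have e : s * f (s ^ 2) - f (s ^ 2) / 2 * (2 * s) = 0 := by ring
    rw [e] at h4
    exact h4
  obtain ⟨c, hc⟩ := IsOpen.exists_is_const_of_deriv_eq_zero (f := fun s => ψ s - F (s ^ 2))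
    isOpen_Ioo isPreconnected_Ioo
    (fun s hs => (hder s hs).differentiableAt.differentiableWithinAt)
    (fun s hs => (hder s hs).deriv)
  refine ⟨c, F, hFs, ?_⟩
  intro s h0 h2
  have hs : s ∈ Set.Ioo 0 (Real.sqrt η) := ⟨h0, (Real.lt_sqrt h0.le).mpr h2⟩
  have h : ψ s - F (s ^ 2) = c := hc s hs
  linarith

end Vale.Agent.H55.Sph
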