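import Vale.Agent.H55.Sph.ImDefs

/-!
SUB-ROW IM-SMOOTH of row SPH-IMM: smoothness on `Ioo 0 L` of the deficit, of the prescribed
phase derivatives `imP1, imP2` and of the four components `imB1 .. imD2` (ImDefs.lean).
Helper lemmas: fresh names with stem `ims_` in this file.  Keep the three statements exactly.

`deriv g` is smooth (`contDiff_infty_iff_deriv`), `deriv w` is smooth on `Ioo 0 L`
(`contDiffOn_infty_iff_deriv_of_isOpen isOpen_Ioo`).  `Dfun` is a rational expression with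
denominator `16 * w * (1 - w) ≠ 0` on `Ioo 0 L` (`ContDiffOn.div`).  Square roots of functions
that do not vanish on the set: `ContDiffOn.sqrt`.  Denominators of `imP1, imP2`:
`√(1 - w x) * g x ≠ 0`, `√(w x) * g x ≠ 0` on `Ioo 0 L`.
-/

namespace Vale.Agent.H55.Sph

open scoped ContDiff

theorem ims_deriv_w (L : ℝ) (w : ℝ → ℝ) (hw : ContDiffOn ℝ ∞ w (Set.Ioo 0 L)) :
    ContDiffOn ℝ ∞ (deriv w) (Set.Ioo 0 L) :=
  ((contDiffOn_infty_iff_deriv_of_isOpen isOpen_Ioo).mp hw).2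

theorem ims_deriv_g (g : ℝ → ℝ) (hg : ContDiff ℝ ∞ g) : ContDiff ℝ ∞ (deriv g) :=
  (contDiff_infty_iff_deriv.mp hg).2

theorem im_contDiffOn_D (L : ℝ) (g w : ℝ → ℝ) (hg : ContDiff ℝ ∞ g)
    (hw : ContDiffOn ℝ ∞ w (Set.Ioo 0 L))
    (hw01 : ∀ s, 0 < s → s < L → 0 < w s ∧ w s < 1) :
    ContDiffOn ℝ ∞ (fun s => Dfun (g s) (deriv g s) (w s) (deriv w s)) (Set.Ioo 0 L) := by
  have hg' := (ims_deriv_g g hg).contDiffOn (s := Set.Ioo 0 L)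
  have hgs := hg.contDiffOn (s := Set.Ioo 0 L)
  have hw' := ims_deriv_w L w hw
  unfold Dfun
  refine ContDiffOn.sub (ContDiffOn.add (ContDiffOn.sub contDiffOn_const ?_) ?_) ?_
  · exact (hg'.pow 2).mul (contDiffOn_const.sub ((contDiffOn_const.mul hw).div_const 4))
  · exact ((contDiffOn_const.mul hgs).mul hg').mul hw'
  · refine ContDiffOn.div (((hgs.pow 2).mul (hw'.pow 2)).mul
      (contDiffOn_const.add (contDiffOn_const.mul hw)))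
      ((contDiffOn_const.mul hw).mul (contDiffOn_const.sub hw)) ?_
    intro s hs
    have := hw01 s hs.1 hs.2
    have h1 : 0 < 16 * w s * (1 - w s) := by nlinarith [this.1, this.2]
    exact h1.ne'

theorem ims_sqrt_w (L : ℝ) (w : ℝ → ℝ) (hw : ContDiffOn ℝ ∞ w (Set.Ioo 0 L))
    (hw01 : ∀ s, 0 < s → s < L → 0 < w s ∧ w s < 1) :
    ContDiffOn ℝ ∞ (fun x => √(w x)) (Set.Ioo 0 L) ∧
    ContDiffOn ℝ ∞ (fun x => √(1 - w x)) (Set.Ioo 0 L) := by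
  constructor
  · exact hw.sqrt (fun s hs => (hw01 s hs.1 hs.2).1.ne')
  · exact (contDiffOn_const.sub hw).sqrt (fun s hs => by
      have := (hw01 s hs.1 hs.2).2
      linarith)

theorem im_contDiffOn_P (L : ℝ) (g w : ℝ → ℝ) (hg : ContDiff ℝ ∞ g)
    (hw : ContDiffOn ℝ ∞ w (Set.Ioo 0 L))
    (hw01 : ∀ s, 0 < s → s < L → 0 < w s ∧ w s < 1)
    (hg0 : ∀ s, 0 < s → s < L → 0 < g s)
    (hD : ∀ s, 0 < s → s < L → 0 < Dfun (g s) (deriv g s) (w s) (deriv w s)) :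
    ContDiffOn ℝ ∞ (imP1 g w) (Set.Ioo 0 L) ∧ ContDiffOn ℝ ∞ (imP2 g w) (Set.Ioo 0 L) := by
  have hgs := hg.contDiffOn (s := Set.Ioo 0 L)
  obtain ⟨hv, hu⟩ := ims_sqrt_w L w hw hw01
  have he : ContDiffOn ℝ ∞ (fun x => √(Dfun (g x) (deriv g x) (w x) (deriv w x)))
      (Set.Ioo 0 L) :=
    (im_contDiffOn_D L g w hg hw hw01).sqrt (fun s hs => (hD s hs.1 hs.2).ne')
  constructor
  · unfold imP1
    refine ContDiffOn.div ((he.mul hv).neg) (hu.mul hgs) ?_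
    intro s hs
    have h1 : 0 < √(1 - w s) := Real.sqrt_pos.mpr (by linarith [(hw01 s hs.1 hs.2).2])
    exact (mul_pos h1 (hg0 s hs.1 hs.2)).ne'
  · unfold imP2
    refine ContDiffOn.div (contDiffOn_const.mul (he.mul hu)) (hv.mul hgs) ?_
    intro s hs
    have h1 : 0 < √(w s) := Real.sqrt_pos.mpr (hw01 s hs.1 hs.2).1
    exact (mul_pos h1 (hg0 s hs.1 hs.2)).ne'

theorem im_contDiffOn_B (L : ℝ) (g w φ1 φ2 : ℝ → ℝ) (hg : ContDiff ℝ ∞ g)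
    (hw : ContDiffOn ℝ ∞ w (Set.Ioo 0 L))
    (hw01 : ∀ s, 0 < s → s < L → 0 < w s ∧ w s < 1)
    (hφ1 : ContDiffOn ℝ ∞ φ1 (Set.Ioo 0 L)) (hφ2 : ContDiffOn ℝ ∞ φ2 (Set.Ioo 0 L)) :
    ContDiffOn ℝ ∞ (imB1 g w φ1) (Set.Ioo 0 L) ∧ ContDiffOn ℝ ∞ (imB2 g w φ1) (Set.Ioo 0 L) ∧
    ContDiffOn ℝ ∞ (imD1 g w φ2) (Set.Ioo 0 L) ∧ ContDiffOn ℝ ∞ (imD2 g w φ2) (Set.Ioo 0 L) := by
  have hgs := hg.contDiffOn (s := Set.Ioo 0 L)
  obtain ⟨hv, hu⟩ := ims_sqrt_w L w hw hw01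
  refine ⟨?_, ?_, ?_, ?_⟩
  · unfold imB1
    exact (hgs.mul hu).mul hφ1.cos
  · unfold imB2
    exact (hgs.mul hu).mul hφ1.sin
  · unfold imD1
    exact ((hgs.div_const 2).mul hv).mul hφ2.cos
  · unfold imD2
    exact ((hgs.div_const 2).mul hv).mul hφ2.sin

end Vale.Agent.H55.Sph
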