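import Vale.Agent.H55.Sph.ImEquiv
import Vale.Agent.H55.Sph.ImChart
import Vale.Agent.H55.Sph.ImMetric
import Vale.Agent.H55.Sph.ImSmooth
import Vale.Agent.H55.Sph.ImPole

/-!
From a profile with pole germs to the immersion.

CO-LEAD ROW SPH-IMM (prove `immersion_of_wprofile`, statement exactly as below; you may cut the
work into sub-rows with your own stub files in this folder, names with stem `im_`).
Notation: `D s = Dfun (g s) (deriv g s) (w s) (deriv w s)`; on `(0, L)`: `0 < w < 1`, `D > 0`,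
`g > 0`, all smooth.  Everything below lives on `(0, L)`; values outside are irrelevant.

1. LOCAL LEMMAS FOR `Imm.equivMap` (copy-adapt `Vale/Agent/H55/EquivImm.lean`:
   `hasFDerivAt_mul_sep`, `hasFDerivAt_compC/compS`, `contDiff_equivMap`, `equivMap_metric`,
   replacing `ContDiff` / `Differentiable` by `ContDiffAt` / `DifferentiableAt` at `p.1`):
   for `b1 b2 d1 d2` with `ContDiffOn ℝ ∞ _ (Ioo 0 L)`: `Imm.equivMap 1 2 b1 b2 d1 d2` is
   `ContDiffOn` on `Ioo 0 L ×ˢ univ`, and at `p` with `0 < p.1 < L` the three inner products are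
   `b1'² + b2'² + d1'² + d2'²`, `1 * (b1 b2' - b2 b1') + 2 * (d1 d2' - d2 d1')`,
   `1² (b1² + b2²) + 2² (d1² + d2²)` (derivatives at `p.1`).
2. PHASES: `φ1 s = ∫ x in (L/2)..s, -√(D x * w x / (1 - w x)) / g x`,
   `φ2 s = ∫ x in (L/2)..s, 2 * √(D x * (1 - w x) / w x) / g x`; the integrands are smooth on
   `(0, L)`, so `φ1, φ2` are `ContDiffOn` there with these derivatives.
3. `b1 = ρ1 cos φ1`, `b2 = ρ1 sin φ1`, `d1 = ρ2 cos φ2`, `d2 = ρ2 sin φ2` with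
   `ρ1 = g √(1 - w)`, `ρ2 = (g / 2) √w`.  Then on `(0, L)`:
   `ρ1² + 4 ρ2² = g²`;  `ρ1² φ1' + 2 ρ2² φ2' = -g √(D w (1-w)) + g √(D w (1-w)) = 0`;
   `ρ1'² + ρ2'² = 1 - D` (this is the definition of `Dfun`: `ρ1' = g' √(1-w) - g w' / (2 √(1-w))`,
   `ρ2' = (g'/2) √w + g w' / (4 √w)`) and `ρ1² φ1'² + ρ2² φ2'² = D w + D (1 - w) = D`.
   So `Φ = Imm.equivMap 1 2 b1 b2 d1 d2` has first fundamental form `ds² + g² dθ²` on
   `(0, L) × ℝ`, and `Φ (s, θ + 2π) = Φ (s, θ)`.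
4. NORTH POLE.  Let `0 < s` small (`s² < η`, `s < ε`, `s < L/2`, and `h > 1/2` on the range):
   `g s = s h(s²)`, `w s = s² ωN(s²)`, `D s = s⁶ QN(s²)`, hence with
   `f1 t = √(QN t * ωN t / (1 - t * ωN t)) / h t`, `f2 t = √(QN t * (1 - t * ωN t) / ωN t) / h t`
   (smooth near `t = 0`):  `φ1' s = -s³ f1(s²)`,  `φ2' s = 2 s f2(s²)`.
   With `F1 t = ∫ τ in 0..t, (τ / 2) * f1 τ`, `F2 t = ∫ τ in 0..t, f2 τ`:
   `φ1 s + F1(s²)` and `φ2 s - F2(s²)` have zero derivative, so they are constants `c1, c2`.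
   Then `b1 s = s A1(s²)`, `b2 s = s A2(s²)`, `d1 s = s² B1(s²)`, `d2 s = s² B2(s²)` with
   `A1 t = h t √(1 - t ωN t) cos (c1 - F1 t)`, `A2 = … sin …`,
   `B1 t = (h t / 2) √(ωN t) cos (c2 + F2 t)`, `B2 = … sin …`  (smooth near `0`), and
   `ΨN (x, y) = (x A1 - y A2, x A2 + y A1, (x² - y²) B1 - 2 x y B2, (x² - y²) B2 + 2 x y B1)`
   evaluated at `r = x² + y²` is smooth on a disc, satisfies
   `Φ (s, θ) = ΨN (s cos θ, s sin θ)` (`cos 2θ = cos² - sin²`, `sin 2θ = 2 sin cos`) and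
   `PoleIsom ΨN` (`∂x ΨN (0,0) = (A1 0, A2 0, 0, 0)`, `∂y ΨN (0,0) = (-A2 0, A1 0, 0, 0)`,
   `A1(0)² + A2(0)² = h(0)² = 1`).
5. SOUTH POLE: the same for `s ↦ g (L - s) = s hS(s²)`, `w (L - s) = s² ωS(s²)`,
   `φi (L - s)` (the derivatives change sign: use `c1 + F1`, `c2 - F2`); `Dfun_neg`.
   Take `δ` = the smaller of the two radii.
-/

namespace Vale.Agent.H55.Sph

open scoped ContDiff

/-- A continuous function with value `1` at `0` is positive near `0`. -/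
theorem im_pos_near (h : ℝ → ℝ) (hc : Continuous h) (h0 : h 0 = 1) :
    ∃ η : ℝ, 0 < η ∧ ∀ t, |t| < η → 0 < h t := by
  have h1 : ∀ᶠ t in nhds (0 : ℝ), 0 < h t :=
    (hc.tendsto 0).eventually (lt_mem_nhds (by rw [h0]; norm_num))
  obtain ⟨η, hη, hball⟩ := Metric.eventually_nhds_iff.mp h1
  refine ⟨η, hη, fun t ht => hball ?_⟩
  rw [Real.dist_eq, sub_zero]
  exact ht

theorem im_lt_of_sq_lt (s a b : ℝ) (hs : 0 < s) (ha : 0 < a) (h : s ^ 2 < b) (hb : b ≤ a ^ 2) :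
    s < a := by
  by_contra hc
  rw [not_lt] at hc
  nlinarith [mul_nonneg (sub_nonneg.mpr hc) (by linarith : (0 : ℝ) ≤ s + a)]

theorem immersion_of_wprofile (L ε : ℝ) (g h hS : ℝ → ℝ) (hd : SphData L ε g h hS)
    (w ωN QN ωS QS : ℝ → ℝ) (η : ℝ) (hw : WProfile L g w ωN QN ωS QS η) : SphImm L g := by
  have hL := hd.Lpos
  have hε := hd.εpos
  -- the phases
  obtain ⟨sP1, sP2⟩ := im_contDiffOn_P L g w hd.sg hw.sw hw.w01 hd.gpos hw.Dpos
  obtain ⟨φ1, sφ1, dφ1⟩ := im_primitive 0 L (imP1 g w) sP1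
  obtain ⟨φ2, sφ2, dφ2⟩ := im_primitive 0 L (imP2 g w) sP2
  obtain ⟨sb1, sb2, sd1, sd2⟩ := im_contDiffOn_B L g w φ1 φ2 hd.sg hw.sw hw.w01 sφ1 sφ2
  -- the radius
  obtain ⟨η1, hη1, hpos1⟩ := im_pos_near h hd.sh.continuous hd.h0
  obtain ⟨η2, hη2, hpos2⟩ := im_pos_near hS hd.shS.continuous hd.hS0
  obtain ⟨η', hη'pos, hη'η, hη'ε, hη'L, hη'1, hη'2⟩ : ∃ η' : ℝ, 0 < η' ∧ η' ≤ η ∧ η' ≤ ε ^ 2 ∧
      η' ≤ (L / 2) ^ 2 ∧ η' ≤ η1 ∧ η' ≤ η2 := by
    refine ⟨min (min η (ε ^ 2)) (min ((L / 2) ^ 2) (min η1 η2)), ?_, ?_, ?_, ?_, ?_, ?_⟩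
    · have h1 : (0 : ℝ) < ε ^ 2 := by positivity
      have h2 : (0 : ℝ) < (L / 2) ^ 2 := by positivity
      exact lt_min (lt_min hw.ηpos h1) (lt_min h2 (lt_min hη1 hη2))
    · exact (min_le_left _ _).trans (min_le_left _ _)
    · exact (min_le_left _ _).trans (min_le_right _ _)
    · exact (min_le_right _ _).trans (min_le_left _ _)
    · exact (min_le_right _ _).trans ((min_le_right _ _).trans (min_le_left _ _))
    · exact (min_le_right _ _).trans ((min_le_right _ _).trans (min_le_right _ _))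
  have hsε : ∀ s : ℝ, 0 < s → s ^ 2 < η' → s < ε := fun s hs hs2 =>
    im_lt_of_sq_lt s ε η' hs hε hs2 hη'ε
  have hsL : ∀ s : ℝ, 0 < s → s ^ 2 < η' → s < L / 2 := fun s hs hs2 =>
    im_lt_of_sq_lt s (L / 2) η' hs (by linarith) hs2 hη'L
  have hsub : Set.Ioo (-η') η' ⊆ Set.Ioo (-η) η := fun t ht =>
    ⟨by linarith [ht.1], by linarith [ht.2]⟩
  -- north pole
  obtain ⟨A1, A2, B1, B2, sA1, sA2, sB1, sB2, hA0, hAN⟩ :=
    im_pole η' 1 h ωN QN g w (fun s => Dfun (g s) (deriv g s) (w s) (deriv w s)) φ1 φ2 hη'pos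
      hd.sh.contDiffOn (hw.sωN.mono hsub) (hw.sQN.mono hsub)
      (fun t ht => ⟨hpos1 t (lt_of_lt_of_le ht hη'1), (hw.posN t (lt_of_lt_of_le ht hη'η)).1,
        (hw.posN t (lt_of_lt_of_le ht hη'η)).2.1, (hw.posN t (lt_of_lt_of_le ht hη'η)).2.2⟩)
      hd.h0
      (fun s hs hs2 => hd.gN s (by rw [abs_of_pos hs]; exact hsε s hs hs2))
      (fun s hs hs2 => hw.wN s hs (lt_of_lt_of_le hs2 hη'η))
      (fun s hs hs2 => hw.DN s hs (lt_of_lt_of_le hs2 hη'η))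
      (fun s hs hs2 => by
        have h1 := dφ1 s ⟨hs, by linarith [hsL s hs hs2]⟩
        show HasDerivAt φ1 (1 * imP1 g w s) s
        rw [one_mul]
        exact h1)
      (fun s hs hs2 => by
        have h1 := dφ2 s ⟨hs, by linarith [hsL s hs hs2]⟩
        show HasDerivAt φ2 (1 * imP2 g w s) s
        rw [one_mul]
        exact h1)
  -- south pole
  have hrev : ∀ s : ℝ, HasDerivAt (fun x : ℝ => L - x) (-1) s := fun s => by
    simpa using (hasDerivAt_id s).const_sub L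
  obtain ⟨C1, C2, E1, E2, sC1, sC2, sE1, sE2, hC0, hCS⟩ :=
    im_pole η' (-1) hS ωS QS (fun s => g (L - s)) (fun s => w (L - s))
      (fun s => Dfun (g (L - s)) (deriv g (L - s)) (w (L - s)) (deriv w (L - s)))
      (fun s => φ1 (L - s)) (fun s => φ2 (L - s)) hη'pos
      hd.shS.contDiffOn (hw.sωS.mono hsub) (hw.sQS.mono hsub)
      (fun t ht => ⟨hpos2 t (lt_of_lt_of_le ht hη'2), (hw.posS t (lt_of_lt_of_le ht hη'η)).1,
        (hw.posS t (lt_of_lt_of_le ht hη'η)).2.1, (hw.posS t (lt_of_lt_of_le ht hη'η)).2.2⟩)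
      hd.hS0
      (fun s hs hs2 => by
        have h1 := hd.gS (L - s) (by
          rw [show L - s - L = -s by ring, abs_neg, abs_of_pos hs]; exact hsε s hs hs2)
        rw [show L - (L - s) = s by ring] at h1
        exact h1)
      (fun s hs hs2 => hw.wS s hs (lt_of_lt_of_le hs2 hη'η))
      (fun s hs hs2 => hw.DS s hs (lt_of_lt_of_le hs2 hη'η))
      (fun s hs hs2 => by
        have h1 := dφ1 (L - s) ⟨by linarith [hsL s hs hs2], by linarith⟩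
        show HasDerivAt (fun s => φ1 (L - s)) (-1 * imP1 g w (L - s)) s
        have h2 := h1.comp s (hrev s)
        rw [mul_comm] at h2
        exact h2)
      (fun s hs hs2 => by
        have h1 := dφ2 (L - s) ⟨by linarith [hsL s hs hs2], by linarith⟩
        show HasDerivAt (fun s => φ2 (L - s)) (-1 * imP2 g w (L - s)) s
        have h2 := h1.comp s (hrev s)
        rw [mul_comm] at h2
        exact h2)
  -- assembly
  refine ⟨Imm.equivMap 1 2 (imB1 g w φ1) (imB2 g w φ1) (imD1 g w φ2) (imD2 g w φ2),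
    imChart A1 A2 B1 B2, imChart C1 C2 E1 E2, √η', Real.sqrt_pos.mpr hη'pos,
    ?_, ?_, ?_, ?_, ?_, ?_, ?_, ?_, ?_⟩
  · exact im_contDiffOn_equivMap 1 2 L _ _ _ _ sb1 sb2 sd1 sd2
  · intro s θ
    have e1 : (1 : ℝ) * (θ + 2 * Real.pi) = 1 * θ + 2 * Real.pi := by ring
    have e2 : (2 : ℝ) * (θ + 2 * Real.pi) = 2 * θ + (2 : ℕ) * (2 * Real.pi) := by
      push_cast; ring
    simp only [Imm.equivMap, Imm.compC, Imm.compS]
    rw [e1, e2, Real.cos_add_two_pi, Real.sin_add_two_pi, Real.cos_add_nat_mul_two_pi,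
      Real.sin_add_nat_mul_two_pi]
  · intro p hp0 hpL
    have hgd : DifferentiableAt ℝ g p.1 := hd.sg.differentiable (by simp) p.1
    have hwd : DifferentiableAt ℝ w p.1 :=
      (hw.sw.contDiffAt (Ioo_mem_nhds hp0 hpL)).differentiableAt (by simp)
    obtain ⟨m1, m2, m3, m4, mE, mF, mG⟩ := im_metric_point g w φ1 φ2 p.1 hgd hwd
      (hd.gpos p.1 hp0 hpL) (hw.w01 p.1 hp0 hpL).1 (hw.w01 p.1 hp0 hpL).2 (hw.Dpos p.1 hp0 hpL)
      (dφ1 p.1 ⟨hp0, hpL⟩) (dφ2 p.1 ⟨hp0, hpL⟩)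
    obtain ⟨k1, k2, k3⟩ := im_equivMap_metric 1 2 _ _ _ _ p m1 m2 m3 m4
    exact ⟨k1.trans mE, k2.trans mF, k3.trans mG⟩
  · have h1 := im_chart_contDiffOn η' A1 A2 B1 B2 hη'pos sA1 sA2 sB1 sB2
    rw [Real.sq_sqrt hη'pos.le]
    exact h1
  · have h1 := im_chart_contDiffOn η' C1 C2 E1 E2 hη'pos sC1 sC2 sE1 sE2
    rw [Real.sq_sqrt hη'pos.le]
    exact h1
  · exact im_chart_poleIsom η' A1 A2 B1 B2 hη'pos sA1 sA2 sB1 sB2 hA0
  · exact im_chart_poleIsom η' C1 C2 E1 E2 hη'pos sC1 sC2 sE1 sE2 hC0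
  · intro s θ hs hsδ
    have hs2 : s ^ 2 < η' := (Real.lt_sqrt hs.le).mp hsδ
    obtain ⟨a1, a2, a3, a4⟩ := hAN s hs hs2
    exact im_chart_polar A1 A2 B1 B2 _ _ _ _ s θ a1 a2 a3 a4
  · intro s θ hs hsδ
    have hs2 : s ^ 2 < η' := (Real.lt_sqrt hs.le).mp hsδ
    obtain ⟨a1, a2, a3, a4⟩ := hCS s hs hs2
    exact im_chart_polar C1 C2 E1 E2 (fun x => imB1 g w φ1 (L - x))
      (fun x => imB2 g w φ1 (L - x)) (fun x => imD1 g w φ2 (L - x))
      (fun x => imD2 g w φ2 (L - x)) s θ a1 a2 a3 a4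

end Vale.Agent.H55.Sph
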