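import Vale.Agent.H19.Sph.Bridge
import Vale.Agent.H55.Sph.Imm

/-!
Smooth isometric immersions into `ℝ⁴` of rotationally symmetric spheres with negative curvature
at both poles and `|g'| < 2`: the profile `w` comes from `Vale.Agent.H19.Sph.exists_wprofile`
(helper19's tree `Vale/Agent/H19/Sph/`), the immersion from `immersion_of_wprofile` (`Imm.lean`).
-/

namespace Vale.Agent.H55.Sph

open scoped ContDiff

theorem sphere_immersion (L ε : ℝ) (g h hS : ℝ → ℝ) (hd : SphData L ε g h hS) : SphImm L g := by
  obtain ⟨w, ωN, QN, ωS, QS, η, hw⟩ := Vale.Agent.H19.Sph.exists_wprofile L ε g h hS hd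
  exact immersion_of_wprofile L ε g h hS hd w ωN QN ωS QS η hw

end Vale.Agent.H55.Sph
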